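import Vale.Agent.P184.Metric

/-!
# Undistorted elements with amenable centraliser
-/

namespace Vale.Agent.P184

open scoped BigOperators
open Filter Topology

variable {G : Type*} [Group G]

/-- comparison of a sum over a finite set and over its translate -/
lemma foelner_sum_le [DecidableEq G] (F : Finset G) (s : G) (φ : G → ℝ) (K : ℝ)
    (hφ : ∀ c, |φ c| ≤ K) :
    |∑ c ∈ F, φ (s * c) - ∑ c ∈ F, φ c| ≤ 2 * K * ((F.image (s * ·) \ F).card : ℝ) := by
  set F' := F.image (s * ·) with hF'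
  have hinj : Set.InjOn (s * ·) (F : Set G) := fun a _ b _ h => mul_left_cancel h
  have h1 : ∑ c ∈ F, φ (s * c) = ∑ d ∈ F', φ d := by
    rw [hF', Finset.sum_image hinj]
  have hcard : F'.card = F.card := Finset.card_image_of_injOn hinj
  have h2 : ∑ d ∈ F', φ d = ∑ d ∈ F' \ F, φ d + ∑ d ∈ F' ∩ F, φ d := by
    rw [add_comm]; exact (Finset.sum_inter_add_sum_sdiff F' F φ).symm
  have h3 : ∑ d ∈ F, φ d = ∑ d ∈ F \ F', φ d + ∑ d ∈ F' ∩ F, φ d := by
    rw [add_comm, Finset.inter_comm]; exact (Finset.sum_inter_add_sum_sdiff F F' φ).symm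
  have h4 : (F \ F').card = (F' \ F).card := by
    have a1 := Finset.card_sdiff_add_card_inter F F'
    have a2 := Finset.card_sdiff_add_card_inter F' F
    rw [Finset.inter_comm] at a2
    omega
  have hb : ∀ A : Finset G, |∑ d ∈ A, φ d| ≤ K * A.card := by
    intro A
    calc |∑ d ∈ A, φ d| ≤ ∑ d ∈ A, |φ d| := Finset.abs_sum_le_sum_abs _ _
      _ ≤ ∑ _d ∈ A, K := Finset.sum_le_sum (fun d _ => hφ d)
      _ = K * A.card := by rw [Finset.sum_const, nsmul_eq_mul, mul_comm]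
  rw [h1, h2, h3]
  have : ∑ d ∈ F' \ F, φ d + ∑ d ∈ F' ∩ F, φ d - (∑ d ∈ F \ F', φ d + ∑ d ∈ F' ∩ F, φ d) =
      ∑ d ∈ F' \ F, φ d - ∑ d ∈ F \ F', φ d := by ring
  rw [this]
  calc |∑ d ∈ F' \ F, φ d - ∑ d ∈ F \ F', φ d|
      ≤ |∑ d ∈ F' \ F, φ d| + |∑ d ∈ F \ F', φ d| := abs_sub _ _
    _ ≤ K * (F' \ F).card + K * (F \ F').card := add_le_add (hb _) (hb _)
    _ = 2 * K * ((F' \ F).card : ℝ) := by rw [h4]; ring

/-- averages of a bounded family are bounded -/
lemma abs_avg_le {ι : Type*} (F : Finset ι) (φ : ι → ℝ) (K : ℝ) (hK : 0 ≤ K)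
    (hφ : ∀ c ∈ F, |φ c| ≤ K) : |(∑ c ∈ F, φ c) / F.card| ≤ K := by
  rcases F.eq_empty_or_nonempty with rfl | hne
  · simpa using hK
  have hpos : (0 : ℝ) < F.card := by exact_mod_cast hne.card_pos
  rw [abs_div, abs_of_pos hpos, div_le_iff₀ hpos]
  calc |∑ c ∈ F, φ c| ≤ ∑ c ∈ F, |φ c| := Finset.abs_sum_le_sum_abs _ _
    _ ≤ ∑ _c ∈ F, K := Finset.sum_le_sum hφ
    _ = K * F.card := by rw [Finset.sum_const, nsmul_eq_mul, mul_comm]

section Length

variable (L : G → ℝ) (hL : ∀ x y, L (x * y) ≤ L x + L y)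

include hL

lemma abs_length_left (h z : G) : |L (h * z) - L z| ≤ max (L h) (L h⁻¹) := by
  rw [abs_le]
  constructor
  · have := hL h⁻¹ (h * z)
    rw [inv_mul_cancel_left] at this
    have h2 := le_max_right (L h) (L h⁻¹)
    linarith
  · have := hL h z
    have h2 := le_max_left (L h) (L h⁻¹)
    linarith

lemma max_length_nonneg (h : G) : 0 ≤ max (L h) (L h⁻¹) :=
  (abs_nonneg _).trans (abs_length_left L hL h 1)

end Length

open Classical in
/-- **Vanishing for undistorted elements with amenable centraliser.** -/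
theorem amenable_vanishing (q : ℕ) (e : Fin q → Fin q → G → ℂ)
    (he : ∀ i j, Summable fun g => ‖e i j g‖)
    (hidem : ∀ i j g, ∑ k, ∑' h, e i k h * e k j (h⁻¹ * g) = e i j g)
    (L : G → ℝ) (hL : ∀ x y, L (x * y) ≤ L x + L y)
    (g₀ : G) (ε : ℝ) (hε : 0 < ε) (hdrift : ∀ n : ℕ, ε * n ≤ L (g₀ ^ n))
    (hFol : ∀ (S : Finset G) (η : ℝ), (∀ s ∈ S, s * g₀ = g₀ * s) → 0 < η →
      ∃ F : Finset G, F.Nonempty ∧ (∀ c ∈ F, c * g₀ = g₀ * c) ∧
        ∀ s ∈ S, ((F.image (s * ·) \ F).card : ℝ) ≤ η * F.card) :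
    ∑' x : {x : G // IsConj g₀ x}, ∑ i, e i i x = 0 := by
  set K : G → ℝ := fun h => max (L h) (L h⁻¹) with hK
  have hK0 : ∀ h, 0 ≤ K h := max_length_nonneg L hL
  have hKl : ∀ h z, |L (h * z) - L z| ≤ K h := abs_length_left L hL
  -- Step 1: Cesaro means along the powers of `g₀`
  let U : Ultrafilter ℕ := Ultrafilter.of atTop
  have hU : (U : Filter ℕ) ≤ atTop := Ultrafilter.of_le _
  let v : G → ℕ → ℝ := fun y N => (∑ n ∈ Finset.range N, (L (y * g₀ ^ n) - L (g₀ ^ n))) / (Finset.range N).card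
  have hv_bdd : ∀ y N, |v y N| ≤ K y := fun y N =>
    abs_avg_le _ _ _ (hK0 y) (fun n _ => hKl y _)
  have hex : ∀ y, ∃ l, Tendsto (v y) U (𝓝 l) := fun y => exists_ultrafilter_lim U (v y) _ (hv_bdd y)
  choose Ψ₀ hΨ₀ using hex
  have hΨ₀_left : ∀ h y, |Ψ₀ (h * y) - Ψ₀ y| ≤ K h := by
    intro h y
    have ht : Tendsto (fun N => |v (h * y) N - v y N|) U (𝓝 |Ψ₀ (h * y) - Ψ₀ y|) :=
      ((hΨ₀ (h * y)).sub (hΨ₀ y)).abs
    refine le_of_tendsto' ht (fun N => ?_)
    have e1 : v (h * y) N - v y N =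
        (∑ n ∈ Finset.range N, (L (h * (y * g₀ ^ n)) - L (y * g₀ ^ n))) / (Finset.range N).card := by
      simp only [v]
      rw [← sub_div, ← Finset.sum_sub_distrib]
      congr 1
      refine Finset.sum_congr rfl (fun n _ => ?_)
      rw [mul_assoc]; ring
    rw [e1]
    exact abs_avg_le _ _ _ (hK0 h) (fun n _ => hKl h _)
  -- the increment under right multiplication by `g₀`
  have hincr : ∀ y N, v (y * g₀) N - v y N = (L (y * g₀ ^ N) - L y) / N := by
    intro y N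
    simp only [v]
    rw [← sub_div, ← Finset.sum_sub_distrib, Finset.card_range]
    congr 1
    have : ∀ n ∈ Finset.range N, (L (y * g₀ * g₀ ^ n) - L (g₀ ^ n)) - (L (y * g₀ ^ n) - L (g₀ ^ n)) =
        L (y * g₀ ^ (n + 1)) - L (y * g₀ ^ n) := by
      intro n _
      rw [pow_succ', mul_assoc]; ring
    rw [Finset.sum_congr rfl this, Finset.sum_range_sub (fun n => L (y * g₀ ^ n))]
    simp
  set ℓ : ℝ := Ψ₀ g₀ - Ψ₀ 1 with hℓ
  have hℓ_all : ∀ y, Ψ₀ (y * g₀) - Ψ₀ y = ℓ := by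
    intro y
    have h0 : Tendsto (fun N : ℕ => (v (y * g₀) N - v y N) - (v (1 * g₀) N - v 1 N)) atTop (𝓝 0) := by
      have hb : ∀ N : ℕ, |(v (y * g₀) N - v y N) - (v (1 * g₀) N - v 1 N)| ≤
          (K y + |L y| + |L 1|) / N := by
        intro N
        rw [hincr, hincr, ← sub_div, abs_div, Nat.abs_cast]
        refine div_le_div_of_nonneg_right ?_ (Nat.cast_nonneg N)
        have a1 := hKl y (g₀ ^ N)
        rw [one_mul]
        calc |L (y * g₀ ^ N) - L y - (L (g₀ ^ N) - L 1)|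
            = |(L (y * g₀ ^ N) - L (g₀ ^ N)) + (- L y) + L 1| := by congr 1; ring
          _ ≤ |L (y * g₀ ^ N) - L (g₀ ^ N)| + |- L y| + |L 1| := abs_add_three _ _ _
          _ ≤ K y + |L y| + |L 1| := by rw [abs_neg]; linarith
      refine squeeze_zero_norm (a := fun N : ℕ => (K y + |L y| + |L 1|) / N) (fun N => ?_) ?_
      · rw [Real.norm_eq_abs]; exact hb N
      · exact tendsto_const_div_atTop_nhds_zero_nat _
    have h1 : Tendsto (fun N : ℕ => (v (y * g₀) N - v y N) - (v (1 * g₀) N - v 1 N)) U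
        (𝓝 ((Ψ₀ (y * g₀) - Ψ₀ y) - (Ψ₀ (1 * g₀) - Ψ₀ 1))) :=
      ((hΨ₀ _).sub (hΨ₀ _)).sub ((hΨ₀ _).sub (hΨ₀ _))
    have := tendsto_nhds_unique h1 (h0.mono_left hU)
    rw [one_mul] at this
    linarith
  have hℓ_pos : ε ≤ ℓ := by
    have h1 : Tendsto (fun N : ℕ => v (1 * g₀) N - v 1 N) U (𝓝 (Ψ₀ (1 * g₀) - Ψ₀ 1)) :=
      (hΨ₀ _).sub (hΨ₀ _)
    rw [one_mul] at h1
    have h2 : Tendsto (fun N : ℕ => ε - L 1 / N) U (𝓝 (ε - 0)) :=
      (tendsto_const_nhds.sub (tendsto_const_div_atTop_nhds_zero_nat _)).mono_left hU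
    rw [sub_zero] at h2
    refine le_of_tendsto_of_tendsto h2 h1 ?_
    have hev : ∀ᶠ N : ℕ in (U : Filter ℕ), 0 < N := hU (eventually_gt_atTop 0)
    filter_upwards [hev] with N hN
    have hN' : (0 : ℝ) < N := by exact_mod_cast hN
    have := hincr 1 N
    rw [one_mul] at this
    rw [this, one_mul, sub_div]
    have h3 : ε ≤ L (g₀ ^ N) / N := by
      rw [le_div_iff₀ hN']; exact hdrift N
    linarith
  -- Step 2: averaging over Foelner sets of the centraliser
  let I := Finset {c : G // c * g₀ = g₀ * c} × ℕ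
  have hFol' : ∀ i : I, ∃ F : Finset G, F.Nonempty ∧ (∀ c ∈ F, c * g₀ = g₀ * c) ∧
      ∀ s ∈ i.1.image Subtype.val, ((F.image (s * ·) \ F).card : ℝ) ≤ (1 / ((i.2 : ℝ) + 1)) * F.card := by
    intro i
    refine hFol (i.1.image Subtype.val) (1 / ((i.2 : ℝ) + 1)) ?_ (by positivity)
    intro s hs
    obtain ⟨c, _, rfl⟩ := Finset.mem_image.mp hs
    exact c.2
  choose F hFne hFc hFinv using hFol'
  let V : Ultrafilter I := Ultrafilter.of atTop
  have hV : (V : Filter I) ≤ atTop := Ultrafilter.of_le _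
  let w : G → I → ℝ := fun y i => (∑ c ∈ F i, (Ψ₀ (y * c) - Ψ₀ c)) / (F i).card
  have hw_bdd : ∀ y i, |w y i| ≤ K y := fun y i =>
    abs_avg_le _ _ _ (hK0 y) (fun c _ => hΨ₀_left y c)
  have hex2 : ∀ y, ∃ l, Tendsto (w y) V (𝓝 l) := fun y => exists_ultrafilter_lim V (w y) _ (hw_bdd y)
  choose Ψ hΨ using hex2
  refine psi_vanishing q e he hidem g₀ Ψ Ψ ?_ ?_ ?_
  · intro h
    refine ⟨K h, fun y => ?_⟩
    have ht : Tendsto (fun i => |w (h * y) i - w y i|) V (𝓝 |Ψ (h * y) - Ψ y|) :=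
      ((hΨ (h * y)).sub (hΨ y)).abs
    refine le_of_tendsto' ht (fun i => ?_)
    have e1 : w (h * y) i - w y i =
        (∑ c ∈ F i, (Ψ₀ (h * (y * c)) - Ψ₀ (y * c))) / (F i).card := by
      simp only [w]
      rw [← sub_div, ← Finset.sum_sub_distrib]
      congr 1
      refine Finset.sum_congr rfl (fun c _ => ?_)
      rw [mul_assoc]; ring
    rw [e1]
    exact abs_avg_le _ _ _ (hK0 h) (fun c _ => hΨ₀_left h _)
  · intro y c' hc'
    set φ : G → ℝ := fun c => Ψ₀ (y * c) - Ψ₀ c with hφ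
    have hφb : ∀ c, |φ c| ≤ K y := fun c => hΨ₀_left y c
    have hdiff : ∀ i, w (y * c') i - w y i - w c' i =
        (∑ c ∈ F i, φ (c' * c) - ∑ c ∈ F i, φ c) / (F i).card := by
      intro i
      simp only [w, hφ]
      rw [← sub_div, ← sub_div, ← Finset.sum_sub_distrib, ← Finset.sum_sub_distrib,
        ← Finset.sum_sub_distrib]
      congr 1
      refine Finset.sum_congr rfl (fun c _ => ?_)
      rw [mul_assoc]; ring
    have h0 : Tendsto (fun i => w (y * c') i - w y i - w c' i) atTop (𝓝 0) := by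
      have hb : ∀ᶠ i : I in atTop, ‖w (y * c') i - w y i - w c' i‖ ≤ 2 * K y * (1 / ((i.2 : ℝ) + 1)) := by
        filter_upwards [eventually_ge_atTop (({⟨c', hc'⟩}, 0) : I)] with i hi
        have hmem : c' ∈ i.1.image Subtype.val := by
          refine Finset.mem_image.mpr ⟨⟨c', hc'⟩, ?_, rfl⟩
          exact hi.1 (Finset.mem_singleton_self _)
        have hpos : (0 : ℝ) < (F i).card := by exact_mod_cast (hFne i).card_pos
        rw [Real.norm_eq_abs, hdiff, abs_div, abs_of_pos hpos, div_le_iff₀ hpos]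
        refine (foelner_sum_le (F i) c' φ (K y) hφb).trans ?_
        have := hFinv i c' hmem
        have h2K : 0 ≤ 2 * K y := by have := hK0 y; positivity
        calc 2 * K y * ((Finset.image (fun x => c' * x) (F i) \ F i).card : ℝ)
            ≤ 2 * K y * (1 / ((i.2 : ℝ) + 1) * (F i).card) := mul_le_mul_of_nonneg_left this h2K
          _ = 2 * K y * (1 / ((i.2 : ℝ) + 1)) * (F i).card := by ring
      refine squeeze_zero_norm' hb ?_
      have h3 : Tendsto (fun i : I => (i.2 : ℕ)) atTop atTop := tendsto_snd.mono_left (by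
        rw [← prod_atTop_atTop_eq])
      have h4 : Tendsto (fun n : ℕ => 2 * K y * (1 / ((n : ℝ) + 1))) atTop (𝓝 (2 * K y * 0)) :=
        tendsto_one_div_add_atTop_nhds_zero_nat.const_mul _
      rw [mul_zero] at h4
      exact h4.comp h3
    have h1 : Tendsto (fun i => w (y * c') i - w y i - w c' i) V (𝓝 (Ψ (y * c') - Ψ y - Ψ c')) :=
      ((hΨ _).sub (hΨ _)).sub (hΨ _)
    have := tendsto_nhds_unique h1 (h0.mono_left hV)
    linarith
  · have hconst : ∀ i, w g₀ i = ℓ := by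
      intro i
      have hpos : (0 : ℝ) < (F i).card := by exact_mod_cast (hFne i).card_pos
      simp only [w]
      rw [div_eq_iff hpos.ne']
      have : ∀ c ∈ F i, Ψ₀ (g₀ * c) - Ψ₀ c = ℓ := by
        intro c hc
        rw [← hFc i c hc]
        exact hℓ_all c
      rw [Finset.sum_congr rfl this, Finset.sum_const, nsmul_eq_mul, mul_comm]
    have h1 : Tendsto (w g₀) V (𝓝 ℓ) := by
      have : w g₀ = fun _ => ℓ := funext hconst
      rw [this]; exact tendsto_const_nhds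
    have := tendsto_nhds_unique (hΨ g₀) h1
    rw [this]
    exact ne_of_gt (lt_of_lt_of_le hε hℓ_pos)

end Vale.Agent.P184
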