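import Mathlib

/-!
# The Bruhat-Tits (CN) form of nonpositive curvature
-/

namespace Vale.Agent.P184

/-- The Bruhat-Tits `CN` inequality: any two points `x y` have a midpoint `m` such that
`d(z,m)² ≤ (d(z,x)² + d(z,y)²)/2 - d(x,y)²/4` for every `z`.  Every `CAT(0)` space has this
property, and a complete metric space has it if and only if it is `CAT(0)`. -/
def IsCN (X : Type*) [PseudoMetricSpace X] : Prop :=
  ∀ x y : X, ∃ m : X, ∀ z : X,
    dist z m ^ 2 ≤ (dist z x ^ 2 + dist z y ^ 2) / 2 - dist x y ^ 2 / 4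

end Vale.Agent.P184
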