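import Vale.Agent.P184.Metric
import Vale.Agent.P184.Cat0Defs

/-!
# CAT(0) spaces (in the Bruhat-Tits form) and CAT(0) groups
-/

namespace Vale.Agent.P184

open scoped BigOperators
open Filter Topology

section CN

variable {X : Type*} [PseudoMetricSpace X]

/-- the quadrilateral inequality follows from `CN` -/
lemma IsCN.quad (hX : IsCN X) (p q r s : X) :
    dist p r ^ 2 + dist q s ^ 2 ≤ dist p q ^ 2 + dist q r ^ 2 + dist r s ^ 2 + dist s p ^ 2 := by
  obtain ⟨m, hm⟩ := hX p r
  have h1 := hm q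
  have h2 := hm s
  have h3 : dist q s ≤ dist q m + dist s m := by
    rw [dist_comm s m]; exact dist_triangle _ _ _
  have h4 : dist q s ^ 2 ≤ 2 * (dist q m ^ 2 + dist s m ^ 2) := by
    have h5 : dist q s ^ 2 ≤ (dist q m + dist s m) ^ 2 :=
      pow_le_pow_left₀ dist_nonneg h3 2
    nlinarith [sq_nonneg (dist q m - dist s m)]
  rw [dist_comm p q, dist_comm r s]
  linarith

/-- distance between `CN`-midpoints of two sides of a triangle -/
lemma midpoint_estimate {x y z m m' : X}
    (hm : ∀ w : X, dist w m ^ 2 ≤ (dist w x ^ 2 + dist w y ^ 2) / 2 - dist x y ^ 2 / 4)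
    (hm' : ∀ w : X, dist w m' ^ 2 ≤ (dist w y ^ 2 + dist w z ^ 2) / 2 - dist y z ^ 2 / 4) :
    dist m m' ≤ dist x z / 2 := by
  have h1 := hm' m
  have h2 := hm y
  have h3 := hm z
  rw [dist_self] at h2
  rw [dist_comm m y, dist_comm m z] at h1
  rw [dist_comm y x] at h2
  rw [dist_comm z x, dist_comm z y] at h3
  have h4 : dist m m' ^ 2 ≤ (dist x z / 2) ^ 2 := by nlinarith
  exact abs_le_of_sq_le_sq' h4 (by positivity) |>.2

end CN

section Action

variable {G : Type*} [Group G] {X : Type*} [PseudoMetricSpace X] [MulAction G X]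
  [IsIsometricSMul G X]

/-- doubling of the minimal displacement -/
lemma displacement_sq (hX : IsCN X) (g : G) (δ : ℝ) (h : ∀ x : X, δ ≤ dist x (g • x)) :
    ∀ x : X, 2 * δ ≤ dist x ((g ^ 2) • x) := by
  intro x
  obtain ⟨m, hm⟩ := hX x (g • x)
  have hm' : ∀ w : X, dist w (g • m) ^ 2 ≤
      (dist w (g • x) ^ 2 + dist w (g • g • x) ^ 2) / 2 - dist (g • x) (g • g • x) ^ 2 / 4 := by
    intro w
    have := hm (g⁻¹ • w)
    rw [dist_inv_smul_left, dist_inv_smul_left, dist_inv_smul_left] at this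
    rw [dist_smul]
    exact this
  have h1 := midpoint_estimate hm hm'
  have h2 := h m
  rw [pow_two, mul_smul]
  linarith

lemma displacement_pow_two (hX : IsCN X) (g : G) (δ : ℝ) (h : ∀ x : X, δ ≤ dist x (g • x))
    (k : ℕ) : ∀ x : X, 2 ^ k * δ ≤ dist x ((g ^ (2 ^ k)) • x) := by
  induction k with
  | zero => simpa using h
  | succ k ih =>
    have := displacement_sq hX (g ^ (2 ^ k)) (2 ^ k * δ) ih
    intro x
    have h1 := this x
    rw [← pow_mul, ← pow_succ] at h1
    rw [pow_succ (2 : ℝ)]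
    linarith

lemma subadditive_orbit (g : G) (o : X) : Subadditive (fun n : ℕ => dist o (g ^ n • o)) := by
  intro m n
  calc dist o (g ^ (m + n) • o) ≤ dist o (g ^ m • o) + dist (g ^ m • o) (g ^ (m + n) • o) :=
        dist_triangle _ _ _
    _ = dist o (g ^ m • o) + dist o (g ^ n • o) := by
        rw [pow_add, mul_smul, dist_smul]

/-- displacement bounded below implies positive drift -/
lemma drift_of_displacement (hX : IsCN X) (g : G) (δ : ℝ) (h : ∀ x : X, δ ≤ dist x (g • x))
    (o : X) (n : ℕ) : δ * n ≤ dist o (g ^ n • o) := by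
  rcases Nat.eq_zero_or_pos n with rfl | hn
  · simp
  have hsub := subadditive_orbit g o
  have hbdd : BddBelow (Set.range fun n : ℕ => dist o (g ^ n • o) / n) :=
    ⟨0, by rintro _ ⟨n, rfl⟩; positivity⟩
  have hlim := hsub.tendsto_lim hbdd
  have hle := hsub.lim_le_div hbdd (Nat.pos_iff_ne_zero.mp hn)
  have hpow : Tendsto (fun k : ℕ => 2 ^ k) atTop atTop :=
    tendsto_pow_atTop_atTop_of_one_lt (by norm_num)
  have hlim2 := hlim.comp hpow
  have hge : δ ≤ hsub.lim := by
    refine ge_of_tendsto' hlim2 (fun k => ?_)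
    simp only [Function.comp]
    rw [le_div_iff₀ (by positivity)]
    have := displacement_pow_two hX g δ h k o
    push_cast
    linarith
  have hn' : (0 : ℝ) < n := by exact_mod_cast hn
  have := hge.trans hle
  rwa [le_div_iff₀ hn'] at this

/-- **Vanishing for isometries of `CAT(0)` spaces with displacement bounded below.** -/
theorem cat0_vanishing (q : ℕ) (e : Fin q → Fin q → G → ℂ)
    (he : ∀ i j, Summable fun g => ‖e i j g‖)
    (hidem : ∀ i j g, ∑ k, ∑' h, e i k h * e k j (h⁻¹ * g) = e i j g)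
    (hX : IsCN X) (g₀ : G) (δ : ℝ) (hδ : 0 < δ) (h : ∀ x : X, δ ≤ dist x (g₀ • x)) (o : X) :
    ∑' x : {x : G // IsConj g₀ x}, ∑ i, e i i x = 0 :=
  metric_vanishing q e he hidem hX.quad g₀ o δ hδ (drift_of_displacement hX g₀ δ h o)

end Action

end Vale.Agent.P184
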