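import Vale.Agent.P184.Cat0

/-!
# The `ℓ¹`-Bass statement for groups acting geometrically on CAT(0) spaces
-/

namespace Vale.Agent.P184

open scoped BigOperators
open Filter Topology

variable {G : Type*} [Group G] {X : Type*} [PseudoMetricSpace X] [MulAction G X]
  [IsIsometricSMul G X]

lemma dist_pow_smul_le (g : G) (x : X) (j : ℕ) : dist x (g ^ j • x) ≤ j * dist x (g • x) := by
  induction j with
  | zero => simp
  | succ j ih =>
    calc dist x (g ^ (j + 1) • x) ≤ dist x (g ^ j • x) + dist (g ^ j • x) (g ^ (j + 1) • x) :=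
          dist_triangle _ _ _
      _ = dist x (g ^ j • x) + dist x (g • x) := by rw [pow_succ, mul_smul, dist_smul]
      _ ≤ j * dist x (g • x) + dist x (g • x) := by linarith
      _ = ((j + 1 : ℕ) : ℝ) * dist x (g • x) := by push_cast; ring

/-- moving a small displacement to the base point -/
lemma conj_displacement (o x : X) (h γ : G) (R t : ℝ) (hx : dist x (h • o) ≤ R)
    (hγ : dist x (γ • x) ≤ t) : dist o ((h⁻¹ * γ * h) • o) ≤ 2 * R + t := by
  have e1 : dist o ((h⁻¹ * γ * h) • o) = dist (h • o) (γ • h • o) := by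
    rw [mul_smul, mul_smul, ← dist_inv_smul_left, inv_inv]
  rw [e1]
  calc dist (h • o) (γ • h • o) ≤ dist (h • o) x + dist x (γ • x) + dist (γ • x) (γ • h • o) :=
        dist_triangle4 _ _ _ _
    _ ≤ R + t + R := by
        rw [dist_smul, dist_comm (h • o) x]
        linarith
    _ = 2 * R + t := by ring

/-- infinite order elements have displacement bounded below -/
lemma displacement_of_infinite_order (o : X) (R : ℝ) (hcob : ∀ x : X, ∃ h : G, dist x (h • o) ≤ R)
    (hprop : ∀ r : ℝ, {h : G | dist o (h • o) ≤ r}.Finite) (g : G) (hg : ¬ IsOfFinOrder g) :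
    ∃ δ : ℝ, 0 < δ ∧ ∀ x : X, δ ≤ dist x (g • x) := by
  classical
  set Φ : Finset G := (hprop (2 * R + 1)).toFinset with hΦ
  set N : ℕ := Φ.card + 1 with hN
  refine ⟨1 / N, by positivity, fun x => ?_⟩
  by_contra hlt
  rw [not_le] at hlt
  obtain ⟨h, hh⟩ := hcob x
  have hmaps : ∀ j ∈ Finset.range N, h⁻¹ * g ^ j * h ∈ Φ := by
    intro j hj
    rw [hΦ, Set.Finite.mem_toFinset]
    refine conj_displacement o x h (g ^ j) R 1 hh ?_
    refine (dist_pow_smul_le g x j).trans ?_
    have hjN : (j : ℝ) ≤ N := by exact_mod_cast (Finset.mem_range.mp hj).le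
    have hNpos : (0 : ℝ) < N := by positivity
    calc (j : ℝ) * dist x (g • x) ≤ N * dist x (g • x) :=
          mul_le_mul_of_nonneg_right hjN dist_nonneg
      _ ≤ N * (1 / N) := mul_le_mul_of_nonneg_left hlt.le hNpos.le
      _ = 1 := by field_simp
  have hcard : Φ.card < (Finset.range N).card := by rw [Finset.card_range, hN]; omega
  obtain ⟨j, _, j', _, hne, heq⟩ := Finset.exists_ne_map_eq_of_card_lt_of_maps_to hcard hmaps
  have : g ^ j = g ^ j' := by
    exact mul_left_cancel (mul_right_cancel heq)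
  exact hne ((injective_pow_iff_not_isOfFinOrder.mpr hg) this)

/-- finite order elements have arbitrarily small displacement -/
lemma small_displacement_of_finite_order (hX : IsCN X) (o : X) (g : G) (hg : IsOfFinOrder g) :
    ∃ x : X, dist x (g • x) < 1 := by
  by_contra hcon
  have hcon : ∀ x : X, 1 ≤ dist x (g • x) := by
    intro x
    by_contra hx
    exact hcon ⟨x, not_le.mp hx⟩
  set D : ℝ := ∑ j ∈ Finset.range (orderOf g), dist o (g ^ j • o) with hD
  have hbd : ∀ n : ℕ, dist o (g ^ n • o) ≤ D := by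
    intro n
    rw [← pow_mod_orderOf g n]
    exact Finset.single_le_sum (f := fun j => dist o (g ^ j • o)) (fun _ _ => dist_nonneg)
      (Finset.mem_range.mpr (Nat.mod_lt _ hg.orderOf_pos))
  have hpow : Tendsto (fun k : ℕ => (2 : ℝ) ^ k) atTop atTop :=
    tendsto_pow_atTop_atTop_of_one_lt (by norm_num)
  obtain ⟨k, hk⟩ := (hpow.eventually_gt_atTop D).exists
  have h1 := displacement_pow_two hX g 1 hcon k o
  have h2 := hbd (2 ^ k)
  linarith

/-- **The `ℓ¹`-Bass statement for `CAT(0)` groups.** -/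
theorem cat0_groups (q : ℕ) (e : Fin q → Fin q → G → ℂ)
    (he : ∀ i j, Summable fun g => ‖e i j g‖)
    (hidem : ∀ i j g, ∑ k, ∑' h, e i k h * e k j (h⁻¹ * g) = e i j g)
    (hX : IsCN X) (o : X) (hcob : ∃ R : ℝ, ∀ x : X, ∃ h : G, dist x (h • o) ≤ R)
    (hprop : ∀ r : ℝ, {h : G | dist o (h • o) ≤ r}.Finite) :
    ∃ F : Finset (ConjClasses G), (∀ C ∈ F, ∀ g ∈ C.carrier, IsOfFinOrder g) ∧
      ∀ C, C ∉ F → ∑' x : C.carrier, ∑ i, e i i x = 0 := by
  classical
  obtain ⟨R, hR⟩ := hcob
  set Φ : Finset G := (hprop (2 * R + 1)).toFinset with hΦ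
  refine ⟨(Φ.filter (fun γ => IsOfFinOrder γ)).image ConjClasses.mk, ?_, ?_⟩
  · intro C hC g hg
    obtain ⟨γ, hγ, rfl⟩ := Finset.mem_image.mp hC
    have hγfin : IsOfFinOrder γ := (Finset.mem_filter.mp hγ).2
    have hconj : IsConj g γ :=
      ConjClasses.mk_eq_mk_iff_isConj.mp (ConjClasses.mem_carrier_iff_mk_eq.mp hg)
    obtain ⟨c, hc⟩ := isConj_iff.mp hconj.symm
    rw [← hc]
    have : c * γ * c⁻¹ = MulAut.conj c γ := rfl
    rw [this]
    exact (MulAut.conj c).toMonoidHom.isOfFinOrder hγfin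
  · intro C hC
    obtain ⟨g, rfl⟩ := ConjClasses.exists_rep C |>.imp (fun g hg => hg.symm)
    have hginf : ¬ IsOfFinOrder g := by
      intro hfin
      apply hC
      obtain ⟨x, hx⟩ := small_displacement_of_finite_order hX o g hfin
      obtain ⟨h, hh⟩ := hR x
      have hmem : h⁻¹ * g * h ∈ Φ := by
        rw [hΦ, Set.Finite.mem_toFinset]
        exact conj_displacement o x h g R 1 hh hx.le
      have hfin' : IsOfFinOrder (h⁻¹ * g * h) := by
        have : h⁻¹ * g * h = MulAut.conj h⁻¹ g := by simp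
        rw [this]
        exact (MulAut.conj h⁻¹).toMonoidHom.isOfFinOrder hfin
      refine Finset.mem_image.mpr ⟨h⁻¹ * g * h, Finset.mem_filter.mpr ⟨hmem, hfin'⟩, ?_⟩
      rw [ConjClasses.mk_eq_mk_iff_isConj]
      exact (isConj_iff.mpr ⟨h⁻¹, by simp⟩ : IsConj g (h⁻¹ * g * h)).symm
    obtain ⟨δ, hδ, hdisp⟩ := displacement_of_infinite_order o R hR hprop g hginf
    have key := cat0_vanishing q e he hidem hX g δ hδ hdisp o
    have hset : (ConjClasses.mk g).carrier = {x : G | IsConj g x} := by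
      ext x
      rw [ConjClasses.mem_carrier_iff_mk_eq, ConjClasses.mk_eq_mk_iff_isConj]
      exact ⟨fun h => h.symm, fun h => h.symm⟩
    rw [hset]
    exact key

end Vale.Agent.P184
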