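import Mathlib

/-!
# The `ℓ¹` crossed product of `ℓ^∞(G)` (conjugation action) by `G`

Elements are functions `F : G → G → ℂ` (`F h x`, `h` the group variable, `x` the point of
the `G`-set `G` with the conjugation action) dominated uniformly in `x` by a summable function
of `h`.  The product is the twisted convolution
`(F * F') k x = ∑' h, F h x * F' (h⁻¹ k) (h⁻¹ x h)`.
-/

namespace Vale.Agent.P184

open scoped BigOperators

set_option linter.unusedSectionVars false

variable {G : Type*} [Group G]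

/-- `F` is dominated, uniformly in the second variable, by a summable function of the first. -/
def IsL1 (F : G → G → ℂ) : Prop := ∃ b : G → ℝ, Summable b ∧ ∀ h x, ‖F h x‖ ≤ b h

/-- sup norm of the `h`-th component -/
noncomputable def sn (F : G → G → ℂ) (h : G) : ℝ := ⨆ x, ‖F h x‖

lemma sn_nonneg (F : G → G → ℂ) (h : G) : 0 ≤ sn F h :=
  Real.iSup_nonneg (fun _ => norm_nonneg _)

lemma IsL1.bddAbove {F : G → G → ℂ} (hF : IsL1 F) (h : G) :
    BddAbove (Set.range fun x => ‖F h x‖) := by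
  obtain ⟨b, _, hb⟩ := hF
  exact ⟨b h, by rintro _ ⟨x, rfl⟩; exact hb h x⟩

lemma IsL1.le_sn {F : G → G → ℂ} (hF : IsL1 F) (h x : G) : ‖F h x‖ ≤ sn F h :=
  le_ciSup (hF.bddAbove h) x

lemma sn_le {F : G → G → ℂ} {h : G} {c : ℝ} (hc : ∀ x, ‖F h x‖ ≤ c) : sn F h ≤ c :=
  ciSup_le hc

lemma IsL1.summable_sn {F : G → G → ℂ} (hF : IsL1 F) : Summable (sn F) := by
  obtain ⟨b, hb, hFb⟩ := hF
  exact Summable.of_nonneg_of_le (sn_nonneg F) (fun h => sn_le (hFb h)) hb

/-! ### convolution of nonnegative summable real functions -/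

/-- real convolution -/
noncomputable def rconv (a b : G → ℝ) (k : G) : ℝ := ∑' h, a h * b (h⁻¹ * k)

/-- the shear `(h, k) ↦ (h, h⁻¹ k)` -/
def shear (G : Type*) [Group G] : G × G ≃ G × G :=
  Equiv.prodShear (Equiv.refl G) (fun h => Equiv.mulLeft h⁻¹)

@[simp] lemma shear_apply (p : G × G) : shear G p = (p.1, p.1⁻¹ * p.2) := rfl

lemma summable_shear {a b : G → ℝ} (ha : Summable a) (hb : Summable b)
    (ha0 : ∀ h, 0 ≤ a h) (hb0 : ∀ h, 0 ≤ b h) :
    Summable (fun p : G × G => a p.1 * b (p.1⁻¹ * p.2)) := by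
  have h1 : Summable (fun p : G × G => a p.1 * b p.2) := ha.mul_of_nonneg hb ha0 hb0
  exact (shear G).summable_iff.mpr h1

lemma summable_shear' {a b : G → ℝ} (ha : Summable a) (hb : Summable b)
    (ha0 : ∀ h, 0 ≤ a h) (hb0 : ∀ h, 0 ≤ b h) :
    Summable (fun p : G × G => a p.2 * b (p.2⁻¹ * p.1)) :=
  (Equiv.prodComm G G).summable_iff.mpr (summable_shear ha hb ha0 hb0)

lemma summable_rconv_term {a b : G → ℝ} (ha : Summable a) (hb : Summable b)
    (ha0 : ∀ h, 0 ≤ a h) (hb0 : ∀ h, 0 ≤ b h) (k : G) :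
    Summable (fun h => a h * b (h⁻¹ * k)) :=
  (summable_shear' ha hb ha0 hb0).prod_factor k

lemma summable_rconv {a b : G → ℝ} (ha : Summable a) (hb : Summable b)
    (ha0 : ∀ h, 0 ≤ a h) (hb0 : ∀ h, 0 ≤ b h) : Summable (rconv a b) :=
  (summable_shear' ha hb ha0 hb0).prod

lemma rconv_nonneg {a b : G → ℝ} (ha0 : ∀ h, 0 ≤ a h) (hb0 : ∀ h, 0 ≤ b h) (k : G) :
    0 ≤ rconv a b k := tsum_nonneg (fun h => mul_nonneg (ha0 h) (hb0 _))

lemma tsum_rconv {a b : G → ℝ} (ha : Summable a) (hb : Summable b)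
    (ha0 : ∀ h, 0 ≤ a h) (hb0 : ∀ h, 0 ≤ b h) :
    ∑' k, rconv a b k = (∑' h, a h) * ∑' h, b h := by
  unfold rconv
  rw [Summable.tsum_comm (f := fun h k => a h * b (h⁻¹ * k)) (summable_shear ha hb ha0 hb0)]
  have : ∀ h, ∑' k, a h * b (h⁻¹ * k) = a h * ∑' k, b k := by
    intro h
    rw [tsum_mul_left]
    congr 1
    exact (Equiv.mulLeft h⁻¹).tsum_eq b
  simp_rw [this]
  rw [tsum_mul_right]

/-! ### the twisted convolution -/

/-- twisted convolution -/
noncomputable def cmul (F F' : G → G → ℂ) (k x : G) : ℂ :=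
  ∑' h, F h x * F' (h⁻¹ * k) (h⁻¹ * x * h)

lemma summable_cmul_term {F F' : G → G → ℂ} (hF : IsL1 F) (hF' : IsL1 F') (k x : G) :
    Summable (fun h => F h x * F' (h⁻¹ * k) (h⁻¹ * x * h)) := by
  refine Summable.of_norm_bounded
    (summable_rconv_term hF.summable_sn hF'.summable_sn (sn_nonneg F) (sn_nonneg F') k) ?_
  intro h
  rw [norm_mul]
  exact mul_le_mul (hF.le_sn _ _) (hF'.le_sn _ _) (norm_nonneg _) (sn_nonneg _ _)

lemma norm_cmul_le {F F' : G → G → ℂ} (hF : IsL1 F) (hF' : IsL1 F') (k x : G) :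
    ‖cmul F F' k x‖ ≤ rconv (sn F) (sn F') k := by
  have hs := summable_rconv_term hF.summable_sn hF'.summable_sn (sn_nonneg F) (sn_nonneg F') k
  refine tsum_of_norm_bounded hs.hasSum ?_
  intro h
  rw [norm_mul]
  exact mul_le_mul (hF.le_sn _ _) (hF'.le_sn _ _) (norm_nonneg _) (sn_nonneg _ _)

lemma IsL1.cmul {F F' : G → G → ℂ} (hF : IsL1 F) (hF' : IsL1 F') : IsL1 (cmul F F') :=
  ⟨rconv (sn F) (sn F'),
    summable_rconv hF.summable_sn hF'.summable_sn (sn_nonneg F) (sn_nonneg F'),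
    norm_cmul_le hF hF'⟩

lemma IsL1.add {F F' : G → G → ℂ} (hF : IsL1 F) (hF' : IsL1 F') : IsL1 (F + F') :=
  ⟨fun h => sn F h + sn F' h, hF.summable_sn.add hF'.summable_sn, fun h x =>
    (norm_add_le _ _).trans (add_le_add (hF.le_sn h x) (hF'.le_sn h x))⟩

lemma IsL1.neg {F : G → G → ℂ} (hF : IsL1 F) : IsL1 (-F) :=
  ⟨sn F, hF.summable_sn, fun h x => by simpa using hF.le_sn h x⟩

lemma IsL1.zero : IsL1 (0 : G → G → ℂ) := ⟨0, summable_zero, fun _ _ => by simp⟩

open Classical in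
/-- the unit: `δ_1 ⊗ 1` -/
noncomputable def cone (h _x : G) : ℂ := if h = 1 then 1 else 0

open Classical in
lemma IsL1.one : IsL1 (cone : G → G → ℂ) := by
  refine ⟨fun h => if h = 1 then 1 else 0, ?_, ?_⟩
  · exact (hasSum_ite_eq (1 : G) (1 : ℝ)).summable
  · intro h x
    unfold cone
    by_cases hh : h = 1 <;> simp [hh]

lemma cmul_add (F F' F'' : G → G → ℂ) (hF : IsL1 F) (hF' : IsL1 F') (hF'' : IsL1 F'') :
    cmul F (F' + F'') = cmul F F' + cmul F F'' := by
  funext k x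
  simp only [cmul, Pi.add_apply, mul_add]
  exact (summable_cmul_term hF hF' k x).tsum_add (summable_cmul_term hF hF'' k x)

lemma add_cmul (F F' F'' : G → G → ℂ) (hF : IsL1 F) (hF' : IsL1 F') (hF'' : IsL1 F'') :
    cmul (F + F') F'' = cmul F F'' + cmul F' F'' := by
  funext k x
  simp only [cmul, Pi.add_apply, add_mul]
  exact (summable_cmul_term hF hF'' k x).tsum_add (summable_cmul_term hF' hF'' k x)

lemma cone_cmul (F : G → G → ℂ) : cmul cone F = F := by
  funext k x
  unfold cmul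
  rw [tsum_eq_single (1 : G)]
  · simp [cone]
  · intro h hh
    simp [cone, hh]

lemma cmul_cone (F : G → G → ℂ) : cmul F cone = F := by
  funext k x
  unfold cmul
  rw [tsum_eq_single k]
  · simp [cone]
  · intro h hh
    have : h⁻¹ * k ≠ 1 := by
      intro h1
      apply hh
      have := inv_mul_eq_one.mp h1
      exact this
    simp [cone, this]

lemma cmul_assoc (F F' F'' : G → G → ℂ) (hF : IsL1 F) (hF' : IsL1 F') (hF'' : IsL1 F'') :
    cmul (cmul F F') F'' = cmul F (cmul F' F'') := by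
  funext k x
  -- left side as an iterated sum
  have hL : cmul (cmul F F') F'' k x =
      ∑' m, ∑' h, F h x * F' (h⁻¹ * m) (h⁻¹ * x * h) * F'' (m⁻¹ * k) (m⁻¹ * x * m) := by
    unfold cmul
    refine tsum_congr (fun m => ?_)
    rw [tsum_mul_right]
  have hR : cmul F (cmul F' F'') k x =
      ∑' h, ∑' m, F h x * F' (h⁻¹ * m) (h⁻¹ * x * h) * F'' (m⁻¹ * k) (m⁻¹ * x * m) := by
    unfold cmul
    refine tsum_congr (fun h => ?_)
    rw [← tsum_mul_left]
    rw [← (Equiv.mulLeft h⁻¹).tsum_eq]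
    refine tsum_congr (fun m => ?_)
    simp only [Equiv.coe_mulLeft, mul_inv_rev, inv_inv]
    have e1 : m⁻¹ * h * (h⁻¹ * k) = m⁻¹ * k := by group
    have e2 : m⁻¹ * h * (h⁻¹ * x * h) * (h⁻¹ * m) = m⁻¹ * x * m := by group
    rw [e1, e2]
    ring
  rw [hL, hR]
  -- Fubini
  have hsum : Summable (Function.uncurry fun h m =>
      F h x * F' (h⁻¹ * m) (h⁻¹ * x * h) * F'' (m⁻¹ * k) (m⁻¹ * x * m)) := by
    have hs := (summable_shear hF.summable_sn hF'.summable_sn (sn_nonneg F) (sn_nonneg F')).mul_right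
      (∑' j, sn F'' j)
    refine Summable.of_norm_bounded hs ?_
    rintro ⟨h, m⟩
    simp only [Function.uncurry, norm_mul]
    refine mul_le_mul (mul_le_mul (hF.le_sn _ _) (hF'.le_sn _ _) (norm_nonneg _) (sn_nonneg _ _))
      ?_ (norm_nonneg _) (mul_nonneg (sn_nonneg _ _) (sn_nonneg _ _))
    exact (hF''.le_sn _ _).trans (hF''.summable_sn.le_tsum _ (fun j _ => sn_nonneg F'' j))
  exact Summable.tsum_comm hsum

/-! ### the ring -/

/-- The `ℓ¹` crossed product `ℓ^∞(G) ⋊ G` for the conjugation action. -/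
@[ext] structure CP (G : Type*) [Group G] where
  /-- underlying function -/
  f : G → G → ℂ
  /-- domination -/
  l1 : IsL1 f

namespace CP

noncomputable instance : Zero (CP G) := ⟨⟨0, IsL1.zero⟩⟩
noncomputable instance : One (CP G) := ⟨⟨cone, IsL1.one⟩⟩
noncomputable instance : Add (CP G) := ⟨fun a b => ⟨a.f + b.f, a.l1.add b.l1⟩⟩
noncomputable instance : Neg (CP G) := ⟨fun a => ⟨-a.f, a.l1.neg⟩⟩
noncomputable instance : Mul (CP G) := ⟨fun a b => ⟨cmul a.f b.f, a.l1.cmul b.l1⟩⟩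

noncomputable instance : AddCommGroup (CP G) where
  add_assoc a b c := CP.ext (add_assoc _ _ _)
  zero_add a := CP.ext (zero_add _)
  add_zero a := CP.ext (add_zero _)
  add_comm a b := CP.ext (add_comm _ _)
  neg_add_cancel a := CP.ext (neg_add_cancel _)
  nsmul := nsmulRec
  zsmul := zsmulRec

lemma zero_cmul (F : G → G → ℂ) : cmul 0 F = 0 := by
  funext k x; simp [cmul]

lemma cmul_zero (F : G → G → ℂ) : cmul F 0 = 0 := by
  funext k x; simp [cmul]

noncomputable instance : Ring (CP G) where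
  left_distrib a b c := CP.ext (cmul_add _ _ _ a.l1 b.l1 c.l1)
  right_distrib a b c := CP.ext (add_cmul _ _ _ a.l1 b.l1 c.l1)
  zero_mul a := CP.ext (zero_cmul _)
  mul_zero a := CP.ext (cmul_zero _)
  mul_assoc a b c := CP.ext (cmul_assoc _ _ _ a.l1 b.l1 c.l1)
  one_mul a := CP.ext (cone_cmul _)
  mul_one a := CP.ext (cmul_cone _)

@[simp] lemma add_f (a b : CP G) : (a + b).f = a.f + b.f := rfl
@[simp] lemma zero_f : (0 : CP G).f = 0 := rfl
@[simp] lemma neg_f (a : CP G) : (-a).f = -a.f := rfl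
@[simp] lemma mul_f (a b : CP G) : (a * b).f = cmul a.f b.f := rfl
@[simp] lemma one_f : (1 : CP G).f = cone := rfl
@[simp] lemma sub_f (a b : CP G) : (a - b).f = a.f - b.f := by
  rw [sub_eq_add_neg, add_f, neg_f, sub_eq_add_neg]

/-- the `ℓ¹(ℓ^∞)` norm -/
noncomputable def nu (a : CP G) : ℝ := ∑' h, sn a.f h

lemma nu_nonneg (a : CP G) : 0 ≤ nu a := tsum_nonneg (sn_nonneg _)

lemma nu_zero : nu (0 : CP G) = 0 := by
  have : ∀ h, sn (0 : CP G).f h = 0 := by
    intro h
    apply le_antisymm _ (sn_nonneg _ _)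
    exact sn_le (fun x => by simp)
  unfold nu
  simp_rw [this]
  exact tsum_zero

lemma nu_add_le (a b : CP G) : nu (a + b) ≤ nu a + nu b := by
  unfold nu
  rw [← a.l1.summable_sn.tsum_add b.l1.summable_sn]
  refine (a + b).l1.summable_sn.tsum_le_tsum (fun h => ?_) (a.l1.summable_sn.add b.l1.summable_sn)
  exact sn_le (fun x => (norm_add_le _ _).trans (add_le_add (a.l1.le_sn h x) (b.l1.le_sn h x)))

lemma nu_mul_le (a b : CP G) : nu (a * b) ≤ nu a * nu b := by
  unfold nu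
  rw [← tsum_rconv a.l1.summable_sn b.l1.summable_sn (sn_nonneg _) (sn_nonneg _)]
  refine (a * b).l1.summable_sn.tsum_le_tsum (fun h => ?_)
    (summable_rconv a.l1.summable_sn b.l1.summable_sn (sn_nonneg _) (sn_nonneg _))
  exact sn_le (fun x => norm_cmul_le a.l1 b.l1 h x)

lemma nu_sum_le {ι : Type*} (s : Finset ι) (a : ι → CP G) :
    nu (∑ i ∈ s, a i) ≤ ∑ i ∈ s, nu (a i) := by
  classical
  induction s using Finset.induction_on with
  | empty => simp [nu_zero]
  | insert i s hi ih =>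
    rw [Finset.sum_insert hi, Finset.sum_insert hi]
    exact (nu_add_le _ _).trans (add_le_add le_rfl ih)

/-- if `a` is dominated by a summable `b`, then `nu a ≤ ∑' b` -/
lemma nu_le_tsum (a : CP G) {b : G → ℝ} (hb : Summable b) (hab : ∀ h x, ‖a.f h x‖ ≤ b h) :
    nu a ≤ ∑' h, b h :=
  a.l1.summable_sn.tsum_le_tsum (fun h => sn_le (hab h)) hb

end CP

end Vale.Agent.P184
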