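import Vale.Agent.P184.TraceLemma
import Vale.Agent.P184.CrossedProduct

/-!
# The core vanishing theorem

Trace on the crossed product, twisting automorphisms attached to multiplicative cocycles,
and the vanishing theorem for idempotent matrices over `ℓ¹(G)`.
-/

namespace Vale.Agent.P184

open scoped BigOperators
open Filter Topology

set_option linter.unusedSectionVars false

variable {G : Type*} [Group G]

namespace CP

/-- evaluation as an additive hom -/
def fHom : CP G →+ (G → G → ℂ) where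
  toFun a := a.f
  map_zero' := rfl
  map_add' _ _ := rfl

lemma sum_f {ι : Type*} (s : Finset ι) (a : ι → CP G) :
    (∑ i ∈ s, a i).f = ∑ i ∈ s, (a i).f := map_sum fHom a s

/-! ### the trace -/

lemma summable_tr_term (w : G → ℂ) (hw1 : ∀ x, ‖w x‖ ≤ 1) (a : CP G) :
    Summable (fun x => w x * a.f x x) := by
  refine Summable.of_norm_bounded a.l1.summable_sn (fun x => ?_)
  rw [norm_mul]
  calc ‖w x‖ * ‖a.f x x‖ ≤ 1 * sn a.f x :=
        mul_le_mul (hw1 x) (a.l1.le_sn x x) (norm_nonneg _) zero_le_one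
    _ = sn a.f x := one_mul _

/-- the trace `a ↦ ∑ₓ w(x) a(x,x)` attached to a bounded class function `w` -/
noncomputable def tr (w : G → ℂ) (hw1 : ∀ x, ‖w x‖ ≤ 1) : CP G →+ ℂ where
  toFun a := ∑' x, w x * a.f x x
  map_zero' := by simp
  map_add' a b := by
    simp only [add_f, Pi.add_apply, mul_add]
    exact (summable_tr_term w hw1 a).tsum_add (summable_tr_term w hw1 b)

lemma tr_apply (w : G → ℂ) (hw1 : ∀ x, ‖w x‖ ≤ 1) (a : CP G) :
    tr w hw1 a = ∑' x, w x * a.f x x := rfl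

lemma norm_tr_le (w : G → ℂ) (hw1 : ∀ x, ‖w x‖ ≤ 1) (a : CP G) : ‖tr w hw1 a‖ ≤ nu a := by
  refine tsum_of_norm_bounded a.l1.summable_sn.hasSum (fun x => ?_)
  rw [norm_mul]
  calc ‖w x‖ * ‖a.f x x‖ ≤ 1 * sn a.f x :=
        mul_le_mul (hw1 x) (a.l1.le_sn x x) (norm_nonneg _) zero_le_one
    _ = sn a.f x := one_mul _

/-- the involution `(x, h) ↦ (h⁻¹ x h, h⁻¹ x)` of `G × G` -/
def flip (G : Type*) [Group G] : G × G ≃ G × G :=
  Function.Involutive.toPerm (fun p : G × G => (p.2⁻¹ * p.1 * p.2, p.2⁻¹ * p.1)) (by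
    rintro ⟨x, h⟩
    simp only [Prod.mk.injEq]
    constructor <;> group)

@[simp] lemma flip_apply (p : G × G) : flip G p = (p.2⁻¹ * p.1 * p.2, p.2⁻¹ * p.1) := rfl

lemma summable_tr_mul (w : G → ℂ) (hw1 : ∀ x, ‖w x‖ ≤ 1) (a b : CP G) :
    Summable (fun p : G × G => w p.1 * (a.f p.2 p.1 * b.f (p.2⁻¹ * p.1) (p.2⁻¹ * p.1 * p.2))) := by
  refine Summable.of_norm_bounded
    (summable_shear' a.l1.summable_sn b.l1.summable_sn (sn_nonneg _) (sn_nonneg _)) ?_
  rintro ⟨x, h⟩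
  simp only [norm_mul]
  calc ‖w x‖ * (‖a.f h x‖ * ‖b.f (h⁻¹ * x) (h⁻¹ * x * h)‖)
      ≤ 1 * (sn a.f h * sn b.f (h⁻¹ * x)) := by
        refine mul_le_mul (hw1 x) ?_ (mul_nonneg (norm_nonneg _) (norm_nonneg _)) zero_le_one
        exact mul_le_mul (a.l1.le_sn _ _) (b.l1.le_sn _ _) (norm_nonneg _) (sn_nonneg _ _)
    _ = sn a.f h * sn b.f (h⁻¹ * x) := one_mul _

lemma tr_mul_eq (w : G → ℂ) (hw1 : ∀ x, ‖w x‖ ≤ 1) (a b : CP G) :
    tr w hw1 (a * b) =
      ∑' p : G × G, w p.1 * (a.f p.2 p.1 * b.f (p.2⁻¹ * p.1) (p.2⁻¹ * p.1 * p.2)) := by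
  rw [(summable_tr_mul w hw1 a b).tsum_prod, tr_apply]
  refine tsum_congr (fun x => ?_)
  rw [mul_f, cmul, ← tsum_mul_left]

lemma tr_mul_comm (w : G → ℂ) (hw1 : ∀ x, ‖w x‖ ≤ 1) (hw2 : ∀ h x, w (h⁻¹ * x * h) = w x)
    (a b : CP G) : tr w hw1 (a * b) = tr w hw1 (b * a) := by
  rw [tr_mul_eq, tr_mul_eq, ← (flip G).tsum_eq]
  refine tsum_congr ?_
  rintro ⟨x, h⟩
  simp only [flip_apply]
  have e1 : (h⁻¹ * x)⁻¹ * (h⁻¹ * x * h) = h := by group
  have e2 : h * (h⁻¹ * x) = x := by group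
  rw [e1, e2, hw2]
  ring

/-! ### twisting by a multiplicative cocycle -/

/-- multiplicative cocycles of modulus at most one on the conjugation groupoid -/
structure IsMult (m : G → G → ℂ) : Prop where
  norm_le : ∀ h x, ‖m h x‖ ≤ 1
  one : ∀ x, m 1 x = 1
  mul : ∀ h k x, m (h * k) x = m h x * m k (h⁻¹ * x * h)

/-- pointwise multiplication by a multiplicative cocycle is a ring endomorphism -/
noncomputable def twist (m : G → G → ℂ) (hm : IsMult m) : CP G →+* CP G where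
  toFun a := ⟨fun h x => m h x * a.f h x, sn a.f, a.l1.summable_sn, fun h x => by
    rw [norm_mul]
    calc ‖m h x‖ * ‖a.f h x‖ ≤ 1 * sn a.f h :=
          mul_le_mul (hm.norm_le h x) (a.l1.le_sn h x) (norm_nonneg _) zero_le_one
      _ = sn a.f h := one_mul _⟩
  map_one' := by
    apply CP.ext
    funext h x
    by_cases hh : h = 1
    · subst hh; simp [cone, hm.one]
    · simp [cone, hh]
  map_zero' := by
    apply CP.ext
    funext h x
    simp
  map_add' a b := by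
    apply CP.ext
    funext h x
    simp [mul_add]
  map_mul' a b := by
    apply CP.ext
    funext k x
    simp only [mul_f, cmul]
    rw [← tsum_mul_left]
    refine tsum_congr (fun h => ?_)
    have : m k x = m h x * m (h⁻¹ * k) (h⁻¹ * x * h) := by
      rw [← hm.mul]; congr 1; group
    rw [this]
    ring

@[simp] lemma twist_f (m : G → G → ℂ) (hm : IsMult m) (a : CP G) (h x : G) :
    (twist m hm a).f h x = m h x * a.f h x := rfl

/-- the embedding of `ℓ¹(G)` -/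
def emb (a : G → ℂ) (ha : Summable fun g => ‖a g‖) : CP G :=
  ⟨fun h _ => a h, fun h => ‖a h‖, ha, fun _ _ => le_rfl⟩

@[simp] lemma emb_f (a : G → ℂ) (ha : Summable fun g => ‖a g‖) (h x : G) :
    (emb a ha).f h x = a h := rfl

/-! ### matrices -/

variable {q : ℕ}

/-- entrywise sum norm on matrices -/
noncomputable def nuM (A : Matrix (Fin q) (Fin q) (CP G)) : ℝ := ∑ i, ∑ j, nu (A i j)

lemma nuM_nonneg (A : Matrix (Fin q) (Fin q) (CP G)) : 0 ≤ nuM A :=
  Finset.sum_nonneg (fun _ _ => Finset.sum_nonneg (fun _ _ => nu_nonneg _))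

lemma nuM_mul_le (A B : Matrix (Fin q) (Fin q) (CP G)) : nuM (A * B) ≤ nuM A * nuM B := by
  unfold nuM
  have h1 : ∀ i j, nu ((A * B) i j) ≤ ∑ k, nu (A i k) * nu (B k j) := by
    intro i j
    rw [Matrix.mul_apply]
    exact (nu_sum_le _ _).trans (Finset.sum_le_sum (fun k _ => nu_mul_le _ _))
  calc ∑ i, ∑ j, nu ((A * B) i j) ≤ ∑ i, ∑ j, ∑ k, nu (A i k) * nu (B k j) :=
        Finset.sum_le_sum (fun i _ => Finset.sum_le_sum (fun j _ => h1 i j))
    _ = ∑ i, ∑ k, nu (A i k) * ∑ j, nu (B k j) := by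
        refine Finset.sum_congr rfl (fun i _ => ?_)
        rw [Finset.sum_comm]
        refine Finset.sum_congr rfl (fun k _ => ?_)
        rw [Finset.mul_sum]
    _ ≤ ∑ i, ∑ k, nu (A i k) * ∑ k', ∑ j, nu (B k' j) := by
        refine Finset.sum_le_sum (fun i _ => Finset.sum_le_sum (fun k _ => ?_))
        refine mul_le_mul_of_nonneg_left ?_ (nu_nonneg _)
        exact Finset.single_le_sum (f := fun k' => ∑ j, nu (B k' j))
          (fun k' _ => Finset.sum_nonneg (fun _ _ => nu_nonneg _)) (Finset.mem_univ k)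
    _ = (∑ i, ∑ j, nu (A i j)) * ∑ i, ∑ j, nu (B i j) := by
        rw [Finset.sum_mul]
        refine Finset.sum_congr rfl (fun i _ => ?_)
        rw [Finset.sum_mul]

/-- the trace on matrices -/
noncomputable def trM (w : G → ℂ) (hw1 : ∀ x, ‖w x‖ ≤ 1) :
    Matrix (Fin q) (Fin q) (CP G) →+ ℂ :=
  (tr w hw1).comp (Matrix.traceAddMonoidHom (Fin q) (CP G))

lemma trM_apply (w : G → ℂ) (hw1 : ∀ x, ‖w x‖ ≤ 1) (A : Matrix (Fin q) (Fin q) (CP G)) :
    trM w hw1 A = ∑ i, tr w hw1 (A i i) := by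
  simp [trM, Matrix.trace, map_sum]

lemma trM_mul_comm (w : G → ℂ) (hw1 : ∀ x, ‖w x‖ ≤ 1) (hw2 : ∀ h x, w (h⁻¹ * x * h) = w x)
    (A B : Matrix (Fin q) (Fin q) (CP G)) : trM w hw1 (A * B) = trM w hw1 (B * A) := by
  rw [trM_apply, trM_apply]
  simp only [Matrix.mul_apply, map_sum]
  rw [Finset.sum_comm]
  refine Finset.sum_congr rfl (fun i _ => Finset.sum_congr rfl (fun j _ => ?_))
  exact tr_mul_comm w hw1 hw2 _ _

lemma norm_trM_le (w : G → ℂ) (hw1 : ∀ x, ‖w x‖ ≤ 1) (A : Matrix (Fin q) (Fin q) (CP G)) :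
    ‖trM w hw1 A‖ ≤ nuM A := by
  rw [trM_apply]
  refine (norm_sum_le _ _).trans (Finset.sum_le_sum (fun i _ => ?_))
  refine (norm_tr_le w hw1 _).trans ?_
  exact Finset.single_le_sum (f := fun j => nu (A i j)) (fun j _ => nu_nonneg _) (Finset.mem_univ i)

end CP

end Vale.Agent.P184
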