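import Vale.Agent.P184.PsiCriterion

/-!
# Isometric actions on spaces with the quadrilateral inequality
-/

namespace Vale.Agent.P184

open scoped BigOperators
open Filter Topology

/-- four point estimate coming from the quadrilateral inequality -/
lemma four_point_estimate {a a' b b' r R : ℝ}
    (ha : 0 ≤ a) (ha' : 0 ≤ a')
    (Q1 : a' ^ 2 + b ^ 2 ≤ r ^ 2 + b' ^ 2 + R ^ 2 + a ^ 2)
    (Q2 : a ^ 2 + b' ^ 2 ≤ r ^ 2 + b ^ 2 + R ^ 2 + a' ^ 2)
    (hb : |b' - b| ≤ R) (hab : |a - b| ≤ r) (hab' : |a' - b'| ≤ r) :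
    |(a' - a) - (b' - b)| * (a + a') ≤ (r + R) ^ 2 := by
  have hR : 0 ≤ R := (abs_nonneg _).trans hb
  have hr : 0 ≤ r := (abs_nonneg _).trans hab
  have h1 : ((a' - a) - (b' - b)) * (a + a') =
      (a' ^ 2 - a ^ 2 - b' ^ 2 + b ^ 2) + (b' - b) * ((b' - a') + (b - a)) := by ring
  have h2 : |(b' - b) * ((b' - a') + (b - a))| ≤ R * (2 * r) := by
    rw [abs_mul]
    refine mul_le_mul hb ?_ (abs_nonneg _) hR
    calc |(b' - a') + (b - a)| ≤ |b' - a'| + |b - a| := abs_add_le _ _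
      _ ≤ r + r := by
          rw [abs_sub_comm b' a', abs_sub_comm b a]
          exact add_le_add hab' hab
      _ = 2 * r := by ring
  have h3 : |a' ^ 2 - a ^ 2 - b' ^ 2 + b ^ 2| ≤ r ^ 2 + R ^ 2 := by
    rw [abs_le]; constructor <;> linarith
  have h4 : |(a' - a) - (b' - b)| * (a + a') = |((a' - a) - (b' - b)) * (a + a')| := by
    rw [abs_mul, abs_of_nonneg (add_nonneg ha ha')]
  rw [h4, h1]
  calc |(a' ^ 2 - a ^ 2 - b' ^ 2 + b ^ 2) + (b' - b) * ((b' - a') + (b - a))|
      ≤ |a' ^ 2 - a ^ 2 - b' ^ 2 + b ^ 2| + |(b' - b) * ((b' - a') + (b - a))| := abs_add_le _ _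
    _ ≤ (r ^ 2 + R ^ 2) + R * (2 * r) := add_le_add h3 h2
    _ = (r + R) ^ 2 := by ring

/-- limits of bounded real sequences along an ultrafilter -/
lemma exists_ultrafilter_lim {ι : Type*} (U : Ultrafilter ι) (u : ι → ℝ) (K : ℝ)
    (hu : ∀ n, |u n| ≤ K) : ∃ L, Tendsto u U (𝓝 L) := by
  have hmem : (U.map u : Filter ℝ) ≤ 𝓟 (Set.Icc (-K) K) := by
    rw [le_principal_iff]
    refine Filter.mem_map.mpr (Filter.univ_mem' (fun n => ?_))
    exact abs_le.mp (hu n)
  obtain ⟨L, _, hL⟩ := isCompact_Icc.ultrafilter_le_nhds (U.map u) hmem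
  exact ⟨L, hL⟩

variable {G : Type*} [Group G] {X : Type*} [PseudoMetricSpace X] [MulAction G X]
  [IsIsometricSMul G X]

lemma dist_inv_smul_left (c : G) (x y : X) : dist (c⁻¹ • x) y = dist x (c • y) := by
  rw [← dist_smul c (c⁻¹ • x) y, smul_inv_smul]

/-- **Vanishing for elements of positive translation length**, under the strong form of the
bolicity inequality `(B1)` of Kasparov-Skandalis and Lafforgue. -/
theorem bolic_vanishing (q : ℕ) (e : Fin q → Fin q → G → ℂ)
    (he : ∀ i j, Summable fun g => ‖e i j g‖)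
    (hidem : ∀ i j g, ∑ k, ∑' h, e i k h * e k j (h⁻¹ * g) = e i j g)
    (hbolic : ∀ η r : ℝ, 0 < η → 0 < r → ∃ R : ℝ, ∀ x₁ x₂ y₁ y₂ : X,
      dist x₁ y₁ + dist x₂ y₂ ≤ r → R ≤ dist x₁ x₂ + dist y₁ y₂ →
      dist x₁ x₂ + dist y₁ y₂ ≤ dist x₁ y₂ + dist x₂ y₁ + η)
    (g₀ : G) (o : X) (ε : ℝ) (hε : 0 < ε) (hdrift : ∀ n : ℕ, ε * n ≤ dist o (g₀ ^ n • o)) :
    ∑' x : {x : G // IsConj g₀ x}, ∑ i, e i i x = 0 := by
  set a : ℕ → ℝ := fun n => dist o (g₀ ^ n • o) with ha
  -- infinitely many large increments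
  have hfreq : ∃ᶠ n in atTop, ε / 2 ≤ a (n + 1) - a n := by
    intro hnot
    obtain ⟨N, hN⟩ := eventually_atTop.mp hnot
    have hgrow : ∀ k : ℕ, a (N + k) ≤ a N + k * (ε / 2) := by
      intro k
      induction k with
      | zero => simp
      | succ k ih =>
        have := hN (N + k) (Nat.le_add_right _ _)
        push_cast
        have e1 : N + (k + 1) = N + k + 1 := by ring
        rw [e1]
        linarith
    obtain ⟨k, hk⟩ := exists_nat_gt ((a N) / (ε / 2))
    have h1 := hgrow k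
    have h2 := hdrift (N + k)
    have h3 : a N < k * (ε / 2) := by
      rwa [div_lt_iff₀ (by positivity)] at hk
    push_cast at h2
    have h4 : 0 ≤ ε * N := by positivity
    have h5 : a (N + k) = dist o (g₀ ^ (N + k) • o) := rfl
    nlinarith
  have : NeBot (atTop ⊓ 𝓟 {n : ℕ | ε / 2 ≤ a (n + 1) - a n}) := frequently_iff_neBot.mp hfreq
  let U : Ultrafilter ℕ := Ultrafilter.of (atTop ⊓ 𝓟 {n : ℕ | ε / 2 ≤ a (n + 1) - a n})
  have hU : (U : Filter ℕ) ≤ atTop ⊓ 𝓟 {n : ℕ | ε / 2 ≤ a (n + 1) - a n} := Ultrafilter.of_le _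
  have hU1 : (U : Filter ℕ) ≤ atTop := hU.trans inf_le_left
  have hU2 : ∀ᶠ n in (U : Filter ℕ), ε / 2 ≤ a (n + 1) - a n :=
    (hU.trans inf_le_right) (mem_principal_self _)
  let u : G → ℕ → ℝ := fun y n => dist (y⁻¹ • o) (g₀ ^ n • o) - a n
  have hu_bdd : ∀ y n, |u y n| ≤ dist (y⁻¹ • o) o := by
    intro y n
    exact abs_dist_sub_le _ _ _
  have hex : ∀ y, ∃ L, Tendsto (u y) U (𝓝 L) := fun y => exists_ultrafilter_lim U (u y) _ (hu_bdd y)
  choose β hβ using hex
  refine psi_vanishing q e he hidem g₀ β β ?_ ?_ ?_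
  · -- bounded left differences
    intro h
    refine ⟨dist (h⁻¹ • o) o, fun y => ?_⟩
    have ht : Tendsto (fun n => |u (h * y) n - u y n|) U (𝓝 |β (h * y) - β y|) :=
      ((hβ (h * y)).sub (hβ y)).abs
    refine le_of_tendsto' ht (fun n => ?_)
    have e1 : u (h * y) n - u y n =
        dist ((h * y)⁻¹ • o) (g₀ ^ n • o) - dist (y⁻¹ • o) (g₀ ^ n • o) := by
      simp only [u]; ring
    rw [e1]
    refine (abs_dist_sub_le _ _ _).trans (le_of_eq ?_)
    rw [mul_inv_rev, mul_smul, dist_smul]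
  · -- right equivariance under the centraliser
    intro y c hc
    have hcomm : ∀ n : ℕ, c * g₀ ^ n = g₀ ^ n * c := fun n => (Commute.pow_right hc n).eq
    set p : X := y⁻¹ • o with hp
    have hD : ∀ n : ℕ, u (y * c) n - u y n - u c n =
        (dist p (g₀ ^ n • c • o) - dist p (g₀ ^ n • o)) -
          (dist o (g₀ ^ n • c • o) - dist o (g₀ ^ n • o)) := by
      intro n
      have e1 : dist ((y * c)⁻¹ • o) (g₀ ^ n • o) = dist p (g₀ ^ n • c • o) := by
        rw [mul_inv_rev, mul_smul, dist_inv_smul_left, ← mul_smul, hcomm, mul_smul]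
      have e2 : dist (c⁻¹ • o) (g₀ ^ n • o) = dist o (g₀ ^ n • c • o) := by
        rw [dist_inv_smul_left, ← mul_smul, hcomm, mul_smul]
      simp only [u, e1, e2, ha]
      ring
    have hlim0 : Tendsto (fun n : ℕ => u (y * c) n - u y n - u c n) atTop (𝓝 0) := by
      rw [Metric.tendsto_atTop]
      intro η hη
      set r : ℝ := dist p o + dist o (c • o) + 1 with hr
      have hrpos : 0 < r := by positivity
      obtain ⟨R, hR⟩ := hbolic (η / 2) r (by positivity) hrpos
      obtain ⟨N, hN⟩ := exists_nat_gt ((R + r) / ε)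
      refine ⟨N, fun n hn => ?_⟩
      rw [Real.dist_eq, sub_zero, hD]
      set z := g₀ ^ n • o with hz
      set z' := g₀ ^ n • c • o with hz'
      have hzz : dist z z' = dist o (c • o) := by rw [hz, hz', dist_smul]
      have hbig : R + r ≤ dist o z := by
        have h1 : ε * n ≤ dist o z := hdrift n
        have h2 : R + r < ε * N := by
          rw [div_lt_iff₀ hε] at hN; linarith
        have h3 : (N : ℝ) ≤ n := by exact_mod_cast hn
        nlinarith
      have hpo : 0 ≤ dist p o := dist_nonneg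
      -- two applications of the bolicity inequality
      have B1 := hR p z o z' (by rw [hzz, hr]; linarith)
        (by
          have h3 : 0 ≤ dist p z := dist_nonneg
          have h4 : dist o z ≤ dist o z' + dist z' z := dist_triangle _ _ _
          rw [dist_comm z' z, hzz] at h4
          linarith)
      have B2 := hR p z' o z (by rw [dist_comm z' z, hzz, hr]; linarith)
        (by
          have h3 : 0 ≤ dist p z' := dist_nonneg
          linarith)
      rw [dist_comm z o] at B1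
      rw [dist_comm z' o] at B2
      rw [abs_lt]
      constructor <;> linarith
    have hlimU : Tendsto (fun n : ℕ => u (y * c) n - u y n - u c n) U (𝓝 0) := hlim0.mono_left hU1
    have hlimU' : Tendsto (fun n : ℕ => u (y * c) n - u y n - u c n) U
        (𝓝 (β (y * c) - β y - β c)) := ((hβ (y * c)).sub (hβ y)).sub (hβ c)
    have := tendsto_nhds_unique hlimU' hlimU
    linarith
  · -- nonvanishing at `g₀`
    have hge : ε / 2 ≤ β g₀ := by
      refine ge_of_tendsto (hβ g₀) ?_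
      filter_upwards [hU2] with n hn
      have : u g₀ n = a (n + 1) - a n := by
        simp only [u, ha]
        rw [dist_inv_smul_left, ← mul_smul, ← pow_succ']
      rw [this]; exact hn
    have : 0 < β g₀ := lt_of_lt_of_le (by positivity) hge
    exact ne_of_gt this

/-- the quadrilateral inequality implies the strong bolicity inequality -/
lemma bolic_of_quad {X : Type*} [PseudoMetricSpace X]
    (hquad : ∀ p q r s : X, dist p r ^ 2 + dist q s ^ 2 ≤
      dist p q ^ 2 + dist q r ^ 2 + dist r s ^ 2 + dist s p ^ 2)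
    (η r : ℝ) (hη : 0 < η) (hr : 0 < r) : ∃ R : ℝ, ∀ x₁ x₂ y₁ y₂ : X,
      dist x₁ y₁ + dist x₂ y₂ ≤ r → R ≤ dist x₁ x₂ + dist y₁ y₂ →
      dist x₁ x₂ + dist y₁ y₂ ≤ dist x₁ y₂ + dist x₂ y₁ + η := by
  refine ⟨r ^ 2 / η + 2 * r + 1, fun x₁ x₂ y₁ y₂ h1 h2 => ?_⟩
  -- notation: p = x₁, o = y₁, z = x₂, z' = y₂
  set a := dist x₁ x₂ with ha
  set a' := dist x₁ y₂ with ha'
  set b := dist y₁ x₂ with hb
  set b' := dist y₁ y₂ with hb'
  set ρ := dist x₁ y₁ with hρ
  set σ := dist x₂ y₂ with hσ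
  have hρ0 : 0 ≤ ρ := dist_nonneg
  have hσ0 : 0 ≤ σ := dist_nonneg
  have Q1 := hquad x₁ y₁ y₂ x₂
  have Q2 := hquad x₁ y₁ x₂ y₂
  have key := four_point_estimate (a := a) (a' := a') (b := b) (b' := b') (r := ρ) (R := σ)
    dist_nonneg dist_nonneg
    (by rw [dist_comm y₂ x₂, dist_comm x₂ x₁] at Q1; linarith)
    (by rw [dist_comm y₂ x₁] at Q2; linarith)
    (by rw [hb', hb, hσ, dist_comm y₁ y₂, dist_comm y₁ x₂, dist_comm x₂ y₂]
        exact abs_dist_sub_le _ _ _)
    (abs_dist_sub_le _ _ _) (abs_dist_sub_le _ _ _)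
  have hsq : (ρ + σ) ^ 2 ≤ r ^ 2 := pow_le_pow_left₀ (by positivity) h1 2
  have ha'a : a - σ ≤ a' := by
    have : a ≤ a' + dist y₂ x₂ := dist_triangle _ _ _
    rw [dist_comm y₂ x₂] at this; linarith
  have hb'a : b' ≤ a + ρ + σ := by
    have h3 : b' ≤ dist y₁ x₁ + dist x₁ x₂ + dist x₂ y₂ := dist_triangle4 _ _ _ _
    rw [dist_comm y₁ x₁] at h3; linarith
  have hlarge : r ^ 2 / η < a + a' := by
    have : r ^ 2 / η + 2 * r + 1 ≤ a + (a + ρ + σ) := by linarith
    linarith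
  have hpos : 0 < a + a' := lt_of_le_of_lt (by positivity) hlarge
  have habs : |(a' - a) - (b' - b)| ≤ η := by
    have h5 : |(a' - a) - (b' - b)| * (a + a') ≤ r ^ 2 := key.trans hsq
    have h6 : r ^ 2 < η * (a + a') := by
      rw [div_lt_iff₀ hη] at hlarge; linarith
    by_contra hcon
    rw [not_le] at hcon
    have : η * (a + a') < |(a' - a) - (b' - b)| * (a + a') :=
      mul_lt_mul_of_pos_right hcon hpos
    linarith
  have := (abs_le.mp habs).1
  rw [dist_comm x₂ y₁]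
  linarith

/-- **Vanishing for elements of positive translation length** (quadrilateral inequality). -/
theorem metric_vanishing (q : ℕ) (e : Fin q → Fin q → G → ℂ)
    (he : ∀ i j, Summable fun g => ‖e i j g‖)
    (hidem : ∀ i j g, ∑ k, ∑' h, e i k h * e k j (h⁻¹ * g) = e i j g)
    (hquad : ∀ p q r s : X, dist p r ^ 2 + dist q s ^ 2 ≤
      dist p q ^ 2 + dist q r ^ 2 + dist r s ^ 2 + dist s p ^ 2)
    (g₀ : G) (o : X) (ε : ℝ) (hε : 0 < ε) (hdrift : ∀ n : ℕ, ε * n ≤ dist o (g₀ ^ n • o)) :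
    ∑' x : {x : G // IsConj g₀ x}, ∑ i, e i i x = 0 :=
  bolic_vanishing q e he hidem (bolic_of_quad hquad) g₀ o ε hε hdrift

end Vale.Agent.P184
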