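import Vale.Agent.P184.Vanishing

/-!
# The vanishing theorem (potential form)
-/

namespace Vale.Agent.P184

open scoped BigOperators
open Filter Topology

variable {G : Type*} [Group G]

open Classical in
/-- **Vanishing criterion** (potential form).  If `Ψ : G → ℝ` has bounded left differences
and transforms by an additive character-like function `ψ` under right multiplication by the
centraliser of `g₀`, with `ψ g₀ ≠ 0`, then the Hattori–Stallings coefficient at the class
of `g₀` of every idempotent matrix over `ℓ¹(G)` vanishes. -/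
theorem psi_vanishing (q : ℕ) (e : Fin q → Fin q → G → ℂ)
    (he : ∀ i j, Summable fun g => ‖e i j g‖)
    (hidem : ∀ i j g, ∑ k, ∑' h, e i k h * e k j (h⁻¹ * g) = e i j g)
    (g₀ : G) (Ψ ψ : G → ℝ)
    (h1 : ∀ h, ∃ M, ∀ y, |Ψ (h * y) - Ψ y| ≤ M)
    (h2 : ∀ y c, c * g₀ = g₀ * c → Ψ (y * c) = Ψ y + ψ c)
    (h3 : ψ g₀ ≠ 0) :
    ∑' x : {x : G // IsConj g₀ x}, ∑ i, e i i x = 0 := by
  -- a section of `y ↦ y g₀ y⁻¹`
  have hsec : ∀ x : G, ∃ s : G, IsConj g₀ x → s * g₀ * s⁻¹ = x := by
    intro x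
    by_cases hx : IsConj g₀ x
    · obtain ⟨s, hs⟩ := isConj_iff.mp hx
      exact ⟨s, fun _ => hs⟩
    · exact ⟨1, fun h => absurd h hx⟩
  choose s hs using hsec
  let κ : G → G → ℝ := fun h x => if IsConj g₀ x then Ψ (s x) - Ψ (h⁻¹ * s x) else 0
  have hconj : ∀ h x : G, IsConj g₀ (h⁻¹ * x * h) ↔ IsConj g₀ x := by
    intro h x
    have : IsConj x (h⁻¹ * x * h) := isConj_iff.mpr ⟨h⁻¹, by simp⟩
    exact ⟨fun H => H.trans this.symm, fun H => H.trans this⟩
  have hψinv : ψ g₀⁻¹ = - ψ g₀ := by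
    have a1 := h2 1 g₀⁻¹ (by simp)
    have a2 := h2 (1 * g₀⁻¹) g₀ rfl
    simp only [one_mul, inv_mul_cancel] at a1 a2
    linarith
  let w : G → ℂ := fun x => if IsConj g₀ x then 1 else 0
  have key := core_vanishing q e he hidem κ ?_ ?_ w ?_ ?_ (ψ g₀) h3 ?_
  · have hsub := tsum_subtype {x : G | IsConj g₀ x} (fun x => ∑ i, e i i x)
    refine Eq.trans ?_ key
    refine Eq.trans hsub ?_
    refine tsum_congr (fun x => ?_)
    by_cases hx : IsConj g₀ x
    · have hm : x ∈ {x : G | IsConj g₀ x} := hx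
      rw [Set.indicator_of_mem hm]
      simp only [w, if_pos hx, one_mul]
    · have hm : x ∉ {x : G | IsConj g₀ x} := hx
      rw [Set.indicator_of_notMem hm]
      simp only [w, if_neg hx, zero_mul]
  · -- cocycle identity
    intro h k x
    by_cases hx : IsConj g₀ x
    · have hx' : IsConj g₀ (h⁻¹ * x * h) := (hconj h x).mpr hx
      simp only [κ, if_pos hx, if_pos hx']
      set c : G := (h⁻¹ * s x)⁻¹ * s (h⁻¹ * x * h) with hc
      have hcomm : c * g₀ = g₀ * c := by
        have e1 := hs x hx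
        have e2 := hs _ hx'
        have e3 : c * g₀ * c⁻¹ = g₀ := by
          have : c * g₀ * c⁻¹ =
              (s x)⁻¹ * h * (s (h⁻¹ * x * h) * g₀ * (s (h⁻¹ * x * h))⁻¹) * h⁻¹ * s x := by
            rw [hc]; group
          rw [this, e2]
          have : (s x)⁻¹ * h * (h⁻¹ * x * h) * h⁻¹ * s x = (s x)⁻¹ * x * s x := by group
          rw [this]
          calc (s x)⁻¹ * x * s x = (s x)⁻¹ * (s x * g₀ * (s x)⁻¹) * s x := by rw [e1]
            _ = g₀ := by group
        calc c * g₀ = c * g₀ * c⁻¹ * c := by group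
          _ = g₀ * c := by rw [e3]
      have e4 : s (h⁻¹ * x * h) = h⁻¹ * s x * c := by rw [hc]; group
      have e5 : k⁻¹ * s (h⁻¹ * x * h) = (h * k)⁻¹ * s x * c := by rw [e4]; group
      rw [e5, e4, h2 _ c hcomm, h2 _ c hcomm]
      ring
    · have hx' : ¬ IsConj g₀ (h⁻¹ * x * h) := fun H => hx ((hconj h x).mp H)
      simp only [κ, if_neg hx, if_neg hx', add_zero]
  · -- boundedness
    intro h
    obtain ⟨M, hM⟩ := h1 h
    refine ⟨M, fun x => ?_⟩
    have hM0 : 0 ≤ M := (abs_nonneg _).trans (hM 1)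
    by_cases hx : IsConj g₀ x
    · simp only [κ, if_pos hx]
      have := hM (h⁻¹ * s x)
      rwa [mul_inv_cancel_left] at this
    · simp only [κ, if_neg hx, abs_zero]
      exact hM0
  · intro x
    by_cases hx : IsConj g₀ x
    · simp only [w, if_pos hx, norm_one, le_refl]
    · simp only [w, if_neg hx, norm_zero, zero_le_one]
  · intro h x
    by_cases hx : IsConj g₀ x
    · simp only [w, if_pos hx, if_pos ((hconj h x).mpr hx)]
    · have hx' : ¬ IsConj g₀ (h⁻¹ * x * h) := fun H => hx ((hconj h x).mp H)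
      simp only [w, if_neg hx, if_neg hx']
  · intro x hwx
    have hx : IsConj g₀ x := by
      by_contra hx
      exact hwx (by simp only [w, if_neg hx])
    simp only [κ, if_pos hx]
    have e1 := hs x hx
    have e2 : x⁻¹ * s x = s x * g₀⁻¹ := by
      calc x⁻¹ * s x = (s x * g₀ * (s x)⁻¹)⁻¹ * s x := by rw [e1]
        _ = s x * g₀⁻¹ := by group
    rw [e2, h2 _ g₀⁻¹ (by simp), hψinv]
    ring

end Vale.Agent.P184
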