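import Mathlib

/-!
# Traces of nearby idempotents

Purely algebraic identity `τ ((e - f)^(2k+1)) = τ e - τ f` for idempotents `e f` and a
trace `τ`, and its consequence: a trace bounded by a submultiplicative function `ν`
takes the same value on idempotents with `ν (e - f) < 1`; hence it is constant along
`ν`-continuous paths of idempotents.
-/

namespace Vale.Agent.P184

open Filter Topology

section Algebra

variable {R : Type*} [Ring R] {M : Type*} [AddCommGroup M]

/-- the square of `e - f` for idempotents -/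
lemma sub_mul_self_eq {e f : R} (he : e * e = e) (hf : f * f = f) :
    (e - f) * (e - f) = e + f - e * f - f * e := by
  have : (e - f) * (e - f) = e * e - e * f - f * e + f * f := by noncomm_ring
  rw [this, he, hf]; abel

lemma y_mul_e {e f : R} (he : e * e = e) :
    (e + f - e * f - f * e) * e = e - e * f * e := by
  have : (e + f - e * f - f * e) * e = e * e + f * e - e * f * e - f * (e * e) := by noncomm_ring
  rw [this, he]; abel

lemma e_mul_y {e f : R} (he : e * e = e) :
    e * (e + f - e * f - f * e) = e - e * f * e := by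
  have : e * (e + f - e * f - f * e) = e * e + e * f - (e * e) * f - e * f * e := by noncomm_ring
  rw [this, he]; abel

lemma y_mul_f {e f : R} (hf : f * f = f) :
    (e + f - e * f - f * e) * f = f - f * e * f := by
  have : (e + f - e * f - f * e) * f = e * f + f * f - e * (f * f) - f * e * f := by noncomm_ring
  rw [this, hf]; abel

lemma f_mul_y {e f : R} (hf : f * f = f) :
    f * (e + f - e * f - f * e) = f - f * e * f := by
  have : f * (e + f - e * f - f * e) = f * e + f * f - f * e * f - (f * f) * e := by noncomm_ring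
  rw [this, hf]; abel

theorem trace_pow_aux (τ : R →+ M) (htr : ∀ a b, τ (a * b) = τ (b * a)) {e f : R}
    (he : e * e = e) (hf : f * f = f) (k : ℕ) :
    τ ((e + f - e * f - f * e) ^ k * e) - τ ((e + f - e * f - f * e) ^ k * f) = τ e - τ f := by
  set y := e + f - e * f - f * e with hy
  have hce : Commute y e := by
    show y * e = e * y
    rw [hy, y_mul_e he, e_mul_y he]
  have hcf : Commute y f := by
    show y * f = f * y
    rw [hy, y_mul_f hf, f_mul_y hf]
  induction k with
  | zero => simp
  | succ k ih =>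
    have hke : Commute (y ^ k) e := hce.pow_left k
    have hkf : Commute (y ^ k) f := hcf.pow_left k
    have h1 : y ^ (k + 1) * e = y ^ k * e - y ^ k * (e * f * e) := by
      rw [pow_succ, mul_assoc, hy, y_mul_e he, mul_sub]
    have h2 : y ^ (k + 1) * f = y ^ k * f - y ^ k * (f * e * f) := by
      rw [pow_succ, mul_assoc, hy, y_mul_f hf, mul_sub]
    have h3 : τ (y ^ k * (e * f * e)) = τ (y ^ k * (e * f)) := by
      have : y ^ k * (e * f * e) = (y ^ k * (e * f)) * e := by noncomm_ring
      rw [this, htr]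
      have : e * (y ^ k * (e * f)) = (e * y ^ k) * (e * f) := by noncomm_ring
      rw [this, ← hke.eq]
      have : y ^ k * e * (e * f) = y ^ k * ((e * e) * f) := by noncomm_ring
      rw [this, he]
    have h4 : τ (y ^ k * (f * e * f)) = τ (y ^ k * (e * f)) := by
      have : y ^ k * (f * e * f) = (y ^ k * (f * e)) * f := by noncomm_ring
      rw [this, htr]
      have : f * (y ^ k * (f * e)) = (f * y ^ k) * (f * e) := by noncomm_ring
      rw [this, ← hkf.eq]
      have : y ^ k * f * (f * e) = (y ^ k * (f * f)) * e := by noncomm_ring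
      rw [this, hf, htr]
      have : e * (y ^ k * f) = (e * y ^ k) * f := by noncomm_ring
      rw [this, ← hke.eq, mul_assoc]
    rw [h1, h2, map_sub, map_sub, h3, h4, ← ih]
    abel

theorem trace_odd_pow (τ : R →+ M) (htr : ∀ a b, τ (a * b) = τ (b * a)) {e f : R}
    (he : e * e = e) (hf : f * f = f) (k : ℕ) :
    τ ((e - f) ^ (2 * k + 1)) = τ e - τ f := by
  rw [pow_succ, pow_mul, pow_two, sub_mul_self_eq he hf, mul_sub, map_sub]
  exact trace_pow_aux τ htr he hf k

end Algebra

section Seminorm

variable {R : Type*} [Ring R]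

lemma nu_pow_le (ν : R → ℝ) (hν0 : ∀ a, 0 ≤ ν a) (hνmul : ∀ a b, ν (a * b) ≤ ν a * ν b)
    (x : R) (n : ℕ) : ν (x ^ (n + 1)) ≤ ν x ^ (n + 1) := by
  induction n with
  | zero => simp
  | succ n ih =>
    rw [pow_succ, pow_succ (ν x)]
    exact (hνmul _ _).trans (mul_le_mul_of_nonneg_right ih (hν0 x))

theorem trace_eq_of_lt_one (ν : R → ℝ) (hν0 : ∀ a, 0 ≤ ν a)
    (hνmul : ∀ a b, ν (a * b) ≤ ν a * ν b)
    (τ : R →+ ℂ) (htr : ∀ a b, τ (a * b) = τ (b * a)) (hb : ∀ a, ‖τ a‖ ≤ ν a)
    {e f : R} (he : e * e = e) (hf : f * f = f) (h : ν (e - f) < 1) : τ e = τ f := by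
  have key : ∀ k : ℕ, ‖τ e - τ f‖ ≤ ν (e - f) ^ (2 * k + 1) := by
    intro k
    rw [← trace_odd_pow τ htr he hf k]
    exact (hb _).trans (nu_pow_le ν hν0 hνmul _ _)
  have hlim : Tendsto (fun k : ℕ => ν (e - f) ^ (2 * k + 1)) atTop (𝓝 0) := by
    have h0 := tendsto_pow_atTop_nhds_zero_of_lt_one (hν0 (e - f)) h
    refine h0.comp ?_
    refine tendsto_atTop_mono (fun k => ?_) tendsto_id
    simp only [id]; omega
  have : ‖τ e - τ f‖ ≤ 0 := ge_of_tendsto' hlim key
  have : τ e - τ f = 0 := by simpa using this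
  exact sub_eq_zero.mp this

theorem trace_const_of_path (ν : R → ℝ) (hν0 : ∀ a, 0 ≤ ν a)
    (hνmul : ∀ a b, ν (a * b) ≤ ν a * ν b)
    (τ : R →+ ℂ) (htr : ∀ a b, τ (a * b) = τ (b * a)) (hb : ∀ a, ‖τ a‖ ≤ ν a)
    (p : ℝ → R) (hp : ∀ t, p t * p t = p t)
    (hcont : ∀ t, ∀ᶠ s in 𝓝 t, ν (p s - p t) < 1) (s t : ℝ) : τ (p s) = τ (p t) := by
  have hlc : IsLocallyConstant (fun t => τ (p t)) := by
    rw [IsLocallyConstant.iff_eventually_eq]
    intro t
    filter_upwards [hcont t] with s hs
    exact trace_eq_of_lt_one ν hν0 hνmul τ htr hb (hp s) (hp t) hs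
  exact hlc.apply_eq_of_preconnectedSpace s t

end Seminorm

end Vale.Agent.P184
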