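import Vale.Agent.P184.Core

/-!
# The vanishing theorem (cocycle form)
-/

namespace Vale.Agent.P184

open scoped BigOperators
open Filter Topology CP

set_option linter.unusedSectionVars false

variable {G : Type*} [Group G]

/-- the phase cocycle `exp (i t κ)` -/
noncomputable def phase (κ : G → G → ℝ) (t : ℝ) (h x : G) : ℂ :=
  Complex.exp (Complex.I * ((t * κ h x : ℝ) : ℂ))

lemma phase_isMult (κ : G → G → ℝ)
    (hκ : ∀ h k x, κ (h * k) x = κ h x + κ k (h⁻¹ * x * h)) (t : ℝ) : IsMult (phase κ t) where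
  norm_le h x := le_of_eq (Complex.norm_exp_I_mul_ofReal _)
  one x := by
    have : κ 1 x = 0 := by
      have := hκ 1 1 x
      simp at this
      exact this
    simp [phase, this]
  mul h k x := by
    unfold phase
    rw [hκ, ← Complex.exp_add]
    congr 1
    push_cast
    ring

lemma norm_phase_sub_le (κ : G → G → ℝ) (s t : ℝ) (h x : G) :
    ‖phase κ s h x - phase κ t h x‖ ≤ |s - t| * |κ h x| := by
  have h1 : phase κ s h x - phase κ t h x =
      phase κ t h x * (Complex.exp (Complex.I * (((s - t) * κ h x : ℝ) : ℂ)) - 1) := by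
    unfold phase
    rw [mul_sub, ← Complex.exp_add, mul_one]
    congr 2
    push_cast
    ring
  rw [h1, norm_mul]
  have h2 : ‖phase κ t h x‖ = 1 := Complex.norm_exp_I_mul_ofReal _
  rw [h2, one_mul]
  refine (Real.norm_exp_I_mul_ofReal_sub_one_le).trans ?_
  rw [Real.norm_eq_abs, abs_mul]

lemma norm_phase_sub_le_two (κ : G → G → ℝ) (s t : ℝ) (h x : G) :
    ‖phase κ s h x - phase κ t h x‖ ≤ 2 := by
  refine (norm_sub_le _ _).trans ?_
  have h1 : ‖phase κ s h x‖ = 1 := Complex.norm_exp_I_mul_ofReal _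
  have h2 : ‖phase κ t h x‖ = 1 := Complex.norm_exp_I_mul_ofReal _
  rw [h1, h2]; norm_num

/-- continuity estimate for one entry -/
lemma tendsto_bound (a : G → ℂ) (ha : Summable fun g => ‖a g‖) (M : G → ℝ) (hM : ∀ h, 0 ≤ M h)
    (t : ℝ) :
    Tendsto (fun s : ℝ => ∑' h, ‖a h‖ * min 2 (|s - t| * M h)) (𝓝 t) (𝓝 0) := by
  have h0 : (0 : ℝ) = ∑' h : G, (0 : ℝ) := by simp
  rw [h0]
  refine tendsto_tsum_of_dominated_convergence (bound := fun h => ‖a h‖ * 2) (ha.mul_right 2) ?_ ?_
  · intro h
    have hc : Continuous (fun s : ℝ => ‖a h‖ * min 2 (|s - t| * M h)) := by fun_prop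
    have := hc.tendsto t
    simpa using this
  · filter_upwards [] with s h
    have h1 : 0 ≤ min 2 (|s - t| * M h) := le_min (by norm_num) (mul_nonneg (abs_nonneg _) (hM h))
    rw [Real.norm_eq_abs, abs_of_nonneg (mul_nonneg (norm_nonneg _) h1)]
    exact mul_le_mul_of_nonneg_left (min_le_left _ _) (norm_nonneg _)

lemma summable_bound (a : G → ℂ) (ha : Summable fun g => ‖a g‖) (M : G → ℝ) (hM : ∀ h, 0 ≤ M h)
    (r : ℝ) (hr : 0 ≤ r) : Summable (fun h => ‖a h‖ * min 2 (r * M h)) := by
  refine Summable.of_nonneg_of_le (fun h => ?_) (fun h => ?_) (ha.mul_right 2)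
  · exact mul_nonneg (norm_nonneg _) (le_min (by norm_num) (mul_nonneg hr (hM h)))
  · exact mul_le_mul_of_nonneg_left (min_le_left _ _) (norm_nonneg _)

/-- **Core vanishing theorem** (cocycle form).  `κ` is a real cocycle on the conjugation
groupoid of `G`, bounded in the point variable for each fixed group element; `w` is a bounded
class function; on the support of `w` the cocycle takes the nonzero constant value `c` at the
loops `(x, x)`.  Then the `w`-weighted trace of every idempotent matrix over `ℓ¹(G)` vanishes. -/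
theorem core_vanishing (q : ℕ) (e : Fin q → Fin q → G → ℂ)
    (he : ∀ i j, Summable fun g => ‖e i j g‖)
    (hidem : ∀ i j g, ∑ k, ∑' h, e i k h * e k j (h⁻¹ * g) = e i j g)
    (κ : G → G → ℝ) (hκ : ∀ h k x, κ (h * k) x = κ h x + κ k (h⁻¹ * x * h))
    (hb : ∀ h, ∃ M, ∀ x, |κ h x| ≤ M)
    (w : G → ℂ) (hw1 : ∀ x, ‖w x‖ ≤ 1) (hw2 : ∀ h x, w (h⁻¹ * x * h) = w x)
    (c : ℝ) (hc : c ≠ 0) (hκw : ∀ x, w x ≠ 0 → κ x x = c) :
    ∑' x, w x * ∑ i, e i i x = 0 := by
  choose M hM using hb
  have hM0 : ∀ h, 0 ≤ M h := fun h => (abs_nonneg _).trans (hM h 1)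
  -- the idempotent matrix over the crossed product
  let E : Matrix (Fin q) (Fin q) (CP G) := Matrix.of fun i j => emb (e i j) (he i j)
  have hE : E * E = E := by
    ext i j
    · rename_i k x
      rw [Matrix.mul_apply, sum_f, Finset.sum_apply, Finset.sum_apply]
      simp only [E, Matrix.of_apply, mul_f, cmul, emb_f]
      exact hidem i j k
  let p : ℝ → Matrix (Fin q) (Fin q) (CP G) :=
    fun t => (twist (phase κ t) (phase_isMult κ hκ t)).mapMatrix E
  have hp : ∀ t, p t * p t = p t := by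
    intro t
    simp only [p]
    rw [← map_mul, hE]
  -- continuity
  have hest : ∀ s t, nuM (p s - p t) ≤ ∑ i, ∑ j, ∑' h, ‖e i j h‖ * min 2 (|s - t| * M h) := by
    intro s t
    unfold nuM
    refine Finset.sum_le_sum (fun i _ => Finset.sum_le_sum (fun j _ => ?_))
    refine nu_le_tsum _ (summable_bound _ (he i j) M hM0 _ (abs_nonneg _)) ?_
    intro h x
    simp only [p, E, Matrix.sub_apply, RingHom.mapMatrix_apply, Matrix.map_apply, Matrix.of_apply,
      sub_f, Pi.sub_apply, twist_f, emb_f]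
    rw [← sub_mul, norm_mul, mul_comm]
    refine mul_le_mul_of_nonneg_left (le_min (norm_phase_sub_le_two κ s t h x) ?_) (norm_nonneg _)
    exact (norm_phase_sub_le κ s t h x).trans
      (mul_le_mul_of_nonneg_left (hM h x) (abs_nonneg _))
  have hcont : ∀ t, ∀ᶠ s in 𝓝 t, nuM (p s - p t) < 1 := by
    intro t
    have hT : Tendsto (fun s : ℝ => ∑ i, ∑ j, ∑' h, ‖e i j h‖ * min 2 (|s - t| * M h))
        (𝓝 t) (𝓝 0) := by
      have : (0 : ℝ) = ∑ _i : Fin q, ∑ _j : Fin q, (0 : ℝ) := by simp
      rw [this]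
      exact tendsto_finsetSum _ (fun i _ => tendsto_finsetSum _
        (fun j _ => tendsto_bound _ (he i j) M hM0 t))
    filter_upwards [hT.eventually (gt_mem_nhds zero_lt_one)] with s hs
    exact (hest s t).trans_lt hs
  -- constancy of the trace
  have hconst := trace_const_of_path (R := Matrix (Fin q) (Fin q) (CP G)) nuM nuM_nonneg nuM_mul_le
    (trM w hw1) (trM_mul_comm w hw1 hw2) (norm_trM_le w hw1) p hp hcont
  -- computation of the trace
  have hval : ∀ t, trM w hw1 (p t) =
      Complex.exp (Complex.I * ((t * c : ℝ) : ℂ)) * ∑' x, w x * ∑ i, e i i x := by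
    intro t
    rw [trM_apply]
    simp only [tr_apply, p, E, RingHom.mapMatrix_apply, Matrix.map_apply, Matrix.of_apply,
      twist_f, emb_f]
    rw [← tsum_mul_left]
    rw [← Summable.tsum_finsetSum]
    · refine tsum_congr (fun x => ?_)
      rw [Finset.mul_sum, Finset.mul_sum]
      refine Finset.sum_congr rfl (fun i _ => ?_)
      by_cases hx : w x = 0
      · simp [hx]
      · rw [phase, hκw x hx]; ring
    · intro i _
      exact summable_tr_term w hw1 (twist (phase κ t) (phase_isMult κ hκ t) (emb (e i i) (he i i)))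
  have h1 := hconst (Real.pi / c) 0
  rw [hval, hval] at h1
  have e1 : Complex.exp (Complex.I * ((Real.pi / c * c : ℝ) : ℂ)) = -1 := by
    rw [div_mul_cancel₀ _ hc, mul_comm]
    exact Complex.exp_pi_mul_I
  have e2 : Complex.exp (Complex.I * ((0 * c : ℝ) : ℂ)) = 1 := by simp
  rw [e1, e2] at h1
  have h2 : (2 : ℂ) * ∑' x, w x * ∑ i, e i i x = 0 := by linear_combination -h1
  simpa using h2

end Vale.Agent.P184
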